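import Vale.Agent.P242.H100.PF

/-! P242, package A-E6P: (A-bound) at one scale. -/

namespace Vale.Agent.P242.H100

theorem num1 {K n a s : ℝ} (hK : 1 ≤ K) (hn : 0 ≤ n) (ha : 0 ≤ a) (hs : 0 ≤ s) :
    K * (K * (n * n) + K * (n * n + n * n + s * a * n + K * (n * n)))
      ≤ 5 * K ^ 3 * (n * n + s * s * (a * a)) := by
  have hK0 : 0 ≤ K := by linarith
  have t8 : s * a * n ≤ (n * n + s * s * (a * a)) / 2 := by
    nlinarith [mul_self_nonneg (s * a - n)]
  have hnn : 0 ≤ n * n := mul_self_nonneg _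
  have haa : 0 ≤ s * s * (a * a) := by positivity
  have hKKK : K ^ 2 ≤ K ^ 3 := pow_le_pow_right₀ hK (by norm_num)
  have t10 : K * (K * (n * n) + K * (n * n + n * n + s * a * n + K * (n * n)))
      = K ^ 2 * (3 * (n * n)) + K ^ 3 * (n * n) + K ^ 2 * (s * a * n) := by ring
  have t11 : K ^ 2 * (n * n) ≤ K ^ 3 * (n * n) := mul_le_mul_of_nonneg_right hKKK hnn
  have t12 : K ^ 2 * (s * s * (a * a)) ≤ K ^ 3 * (s * s * (a * a)) :=
    mul_le_mul_of_nonneg_right hKKK haa
  have t13 : 0 ≤ K ^ 3 * (n * n) := by positivity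
  have t14 : 0 ≤ K ^ 3 * (s * s * (a * a)) := by positivity
  have t15 := mul_le_mul_of_nonneg_left t8 (by positivity : 0 ≤ K ^ 2)
  rw [t10]
  linarith

theorem num2 {K n a s : ℝ} (hK : 1 ≤ K) (hn : 0 ≤ n) (ha : 0 ≤ a) (hs : 0 ≤ s)
    (h : a * a ≤ 5 * K ^ 3 * ((n + s * a) * (2 * K * s * a))
      + (K * (K * s * n * a + K * (K * s * a) * n) + K * (s * s * (a * a) + s * (K * a) * n)) / 2)
    (hsmall : 22 * K ^ 4 * (s * s) ≤ 1) : a ≤ 24 * K ^ 4 * s * n := by
  have hK0 : 0 ≤ K := by linarith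
  by_cases ha1 : a = 0
  · rw [ha1]; positivity
  have hapos : 0 < a := lt_of_le_of_ne ha (Ne.symm ha1)
  have hK2 : K ^ 2 ≤ K ^ 4 := pow_le_pow_right₀ hK (by norm_num)
  have hK3 : K ^ 3 ≤ K ^ 4 := pow_le_pow_right₀ hK (by norm_num)
  have hKK : K ≤ K ^ 4 := le_self_pow₀ hK (by norm_num)
  have hx : 0 ≤ s * n * a := by positivity
  have hy : 0 ≤ s * s * (a * a) := by positivity
  have u1 := mul_le_mul_of_nonneg_right hK2 hx
  have u2 := mul_le_mul_of_nonneg_right hK3 hx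
  have u3 := mul_le_mul_of_nonneg_right hKK hy
  have u4 : 0 ≤ K ^ 4 * (s * n * a) := by positivity
  have u5 : 0 ≤ K ^ 4 * (s * s * (a * a)) := by positivity
  have s7 : a * a ≤ (12 * K ^ 4 * s * n + 11 * K ^ 4 * (s * s) * a) * a := by
    have e1 : 5 * K ^ 3 * ((n + s * a) * (2 * K * s * a))
      + (K * (K * s * n * a + K * (K * s * a) * n) + K * (s * s * (a * a) + s * (K * a) * n)) / 2
      = 10 * (K ^ 4 * (s * n * a)) + 10 * (K ^ 4 * (s * s * (a * a)))
        + (2 * (K ^ 2 * (s * n * a)) + K ^ 3 * (s * n * a) + K * (s * s * (a * a))) / 2 := by ring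
    have e2 : (12 * K ^ 4 * s * n + 11 * K ^ 4 * (s * s) * a) * a
      = 12 * (K ^ 4 * (s * n * a)) + 11 * (K ^ 4 * (s * s * (a * a))) := by ring
    rw [e1] at h
    rw [e2]
    linarith
  have s8 : a ≤ 12 * K ^ 4 * s * n + 11 * K ^ 4 * (s * s) * a := le_of_mul_le_mul_right s7 hapos
  have s9 : 11 * K ^ 4 * (s * s) * a ≤ 1 / 2 * a := mul_le_mul_of_nonneg_right (by linarith) ha
  linarith

variable {E : Type*} [AddCommGroup E] [Module ℝ E]

/-- the quadratic form of `A` -/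
theorem quad_bound {G S N : E → E → ℝ} (hG : PF G) (hN : PF N)
    (A : E →ₗ[ℝ] E) {P d : E → ℝ} {D V K s : ℝ} (hK : 1 ≤ K) (hs : 0 ≤ s) (hD0 : 0 ≤ D)
    (hV : 1 ≤ K * V) (hV0 : 0 ≤ V)
    (hSN : ∀ v, S v v ≤ N v v)
    (f1 : ∀ u, √D * √(G u u) ≤ √(N u u)) (f2 : ∀ u, √(S u u) ≤ √(N u u))
    (f3 : ∀ u, √(S u u) ≤ s * √(G u u))
    (hDN : ∀ v, D * G v v ≤ N v v)
    (hd : ∀ v, d v ≤ K * √D * √(N v v))
    (hP0 : ∀ v, 0 ≤ P v) (hP : ∀ v, P v ≤ K * S v v)
    (hE6 : ∀ v, |P v - V * G (A v) v| ≤ K * (D * G v v + √(D * S v v) * √(G v v)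
      + √(S (A v) (A v)) * √(S v v) + d v * √(G v v))) (u : E) :
    |G (A u) u| ≤ 5 * K ^ 3 * (N u u + s * s * G (A u) (A u)) := by
  have hK0 : 0 ≤ K := by linarith
  have hn0 : 0 ≤ √(N u u) := Real.sqrt_nonneg _
  have hn2 : √(N u u) * √(N u u) = N u u := Real.mul_self_sqrt (hN.nonneg u)
  have ha0 : 0 ≤ √(G (A u) (A u)) := Real.sqrt_nonneg _
  have ha2 : √(G (A u) (A u)) * √(G (A u) (A u)) = G (A u) (A u) :=
    Real.mul_self_sqrt (hG.nonneg _)
  have hg0 : 0 ≤ √(G u u) := Real.sqrt_nonneg _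
  have h1 := hE6 u
  have h2 := hP u
  have h3 := hP0 u
  have h4 := hd u
  have h5 := f1 u
  have h6 := f2 u
  have h7 := f3 (A u)
  have h8 := hDN u
  have h9 := hSN u
  rw [Real.sqrt_mul hD0] at h1
  rw [← hn2, ← ha2]
  rw [← hn2] at h8 h9
  have hsS0 : 0 ≤ √(S u u) := Real.sqrt_nonneg _
  have hsD0 : 0 ≤ √D := Real.sqrt_nonneg _
  generalize √(N u u) = n at *
  generalize √(G (A u) (A u)) = a at *
  generalize √(G u u) = g at *
  generalize √(S u u) = σ at *
  generalize √(S (A u) (A u)) = σ' at *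
  generalize G (A u) u = x at *
  generalize √D = δ at *
  have t2 : δ * σ * g ≤ n * n := by
    calc δ * σ * g = σ * (δ * g) := by ring
      _ ≤ n * n := mul_le_mul h6 h5 (by positivity) hn0
  have t3 : σ' * σ ≤ s * a * n := mul_le_mul h7 h6 hsS0 (by positivity)
  have t4 : d u * g ≤ K * (n * n) := by
    calc d u * g ≤ (K * δ * n) * g := mul_le_mul_of_nonneg_right h4 hg0
      _ = K * n * (δ * g) := by ring
      _ ≤ K * n * n := mul_le_mul_of_nonneg_left h5 (by positivity)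
      _ = K * (n * n) := by ring
  have t5 : P u ≤ K * (n * n) := h2.trans (mul_le_mul_of_nonneg_left h9 hK0)
  have t6 : V * |x| ≤ K * (n * n) + K * (n * n + n * n + s * a * n + K * (n * n)) := by
    have e2 : |V * x| ≤ |P u| + |P u - V * x| := by
      have := abs_sub (P u) (P u - V * x)
      have e3 : P u - (P u - V * x) = V * x := by ring
      rw [e3] at this; exact this
    rw [abs_mul, abs_of_nonneg hV0, abs_of_nonneg h3] at e2
    have e4 : K * (D * G u u + δ * σ * g + σ' * σ + d u * g)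
        ≤ K * (n * n + n * n + s * a * n + K * (n * n)) :=
      mul_le_mul_of_nonneg_left (by linarith) hK0
    linarith
  have t7 : |x| ≤ K * (V * |x|) := by
    have := mul_le_mul_of_nonneg_right hV (abs_nonneg x)
    calc |x| = 1 * |x| := (one_mul _).symm
      _ ≤ K * V * |x| := this
      _ = _ := by ring
  exact (t7.trans (mul_le_mul_of_nonneg_left t6 hK0)).trans (num1 hK hn0 ha0 hs)

/-- **(A-bound)**, one scale: if the matrix `A` is almost symmetric and its quadratic form is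
controlled by the nonnegative form `N`, then `|A v| ≤ C √ε √(N v v)`. -/
theorem a_bound {G S N : E → E → ℝ} (hG : PF G) (hN : PF N) (A : E →ₗ[ℝ] E)
    {P d : E → ℝ} {D V K ε : ℝ} (hK : 1 ≤ K) (hε : 0 ≤ ε) (hD0 : 0 ≤ D) (hDε : D ≤ ε)
    (hV : 1 ≤ K * V) (hV0 : 0 ≤ V)
    (hSε : ∀ v, S v v ≤ ε * G v v)
    (hSN : ∀ v, S v v ≤ N v v) (hDN : ∀ v, D * G v v ≤ N v v)
    (hNε : ∀ v, N v v ≤ K * ε * G v v)
    (hd : ∀ v, d v ≤ K * √D * √(N v v))
    (hP0 : ∀ v, 0 ≤ P v) (hP : ∀ v, P v ≤ K * S v v)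
    (hE6 : ∀ v, |P v - V * G (A v) v| ≤ K * (D * G v v + √(D * S v v) * √(G v v)
      + √(S (A v) (A v)) * √(S v v) + d v * √(G v v)))
    (hanti : ∀ v w, |G (A v) w - G v (A w)| ≤ K * (d v * √(G w w) + d w * √(G v v))
      + K * (√(S (A v) (A v)) * √(S w w) + √(S (A w) (A w)) * √(S v v)))
    (hA : ∀ v, √(G (A v) (A v)) ≤ K * √(G v v))
    (hsmall : 22 * K ^ 4 * ε ≤ 1) (v : E) :
    √(G (A v) (A v)) ≤ 24 * K ^ 4 * √ε * √(N v v) := by
  have hK0 : 0 ≤ K := by linarith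
  obtain ⟨s, hs, hsε⟩ : ∃ s : ℝ, 0 ≤ s ∧ s * s = ε := ⟨√ε, Real.sqrt_nonneg _, Real.mul_self_sqrt hε⟩
  have hse : √ε = s := by rw [← hsε]; exact Real.sqrt_mul_self hs
  rw [hse]
  have hsD : √D ≤ s := by rw [← hse]; exact Real.sqrt_le_sqrt hDε
  have hsD0 : 0 ≤ √D := Real.sqrt_nonneg _
  rw [← hsε] at hSε hNε hsmall
  -- basic facts
  have f1 : ∀ u, √D * √(G u u) ≤ √(N u u) := by
    intro u; rw [← Real.sqrt_mul hD0]; exact Real.sqrt_le_sqrt (hDN u)
  have f2 : ∀ u, √(S u u) ≤ √(N u u) := fun u => Real.sqrt_le_sqrt (hSN u)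
  have f3 : ∀ u, √(S u u) ≤ s * √(G u u) := by
    intro u
    have := Real.sqrt_le_sqrt (hSε u)
    rwa [Real.sqrt_mul (mul_self_nonneg s), Real.sqrt_mul_self hs] at this
  have f4 : ∀ u, √(N u u) ≤ K * s * √(G u u) := by
    intro u
    apply Real.sqrt_le_iff.2
    refine ⟨by positivity, (hNε u).trans ?_⟩
    have e1 : (K * s * √(G u u)) ^ 2 = K ^ 2 * (s * s) * (√(G u u) * √(G u u)) := by ring
    rw [e1, Real.mul_self_sqrt (hG.nonneg u)]
    have : K * (s * s) ≤ K ^ 2 * (s * s) := by nlinarith [mul_nonneg hK0 (mul_self_nonneg s)]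
    exact mul_le_mul_of_nonneg_right this (hG.nonneg u)
  -- polarisation
  have hR : PF (fun u w => N u w + s * s * G (A u) (A w)) :=
    hN.sum_forms ((hG.comp A).const_mul (mul_self_nonneg s))
  have q2 := polar_le (Q := fun u w => (G (A u) w + G u (A w)) / 2)
    (R := fun u w => N u w + s * s * G (A u) (A w)) (K := 5 * K ^ 3) (by positivity) hR
    (by intro u u' w; simp only [map_add, hG.add]; ring)
    (by intro r u w; simp only [map_smul, hG.smul]; ring)
    (by intro u w; simp only [hG.symm (A u) w, hG.symm u (A w)]; ring)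
    (by
      intro u
      have e : (G (A u) u + G u (A u)) / 2 = G (A u) u := by rw [hG.symm u (A u)]; ring
      simp only [e]
      exact quad_bound hG hN A hK hs hD0 hV hV0 hSN f1 f2 f3 hDN hd hP0 hP hE6 u) v (A v)
  have hA2 := hA (A v)
  have hn0 : 0 ≤ √(N v v) := Real.sqrt_nonneg _
  have hn2 : √(N v v) * √(N v v) = N v v := Real.mul_self_sqrt (hN.nonneg v)
  have ha0 : 0 ≤ √(G (A v) (A v)) := Real.sqrt_nonneg _
  have ha2 : √(G (A v) (A v)) * √(G (A v) (A v)) = G (A v) (A v) :=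
    Real.mul_self_sqrt (hG.nonneg _)
  have hb0 : 0 ≤ √(G (A (A v)) (A (A v))) := Real.sqrt_nonneg _
  have hb2 : √(G (A (A v)) (A (A v))) * √(G (A (A v)) (A (A v))) = G (A (A v)) (A (A v)) :=
    Real.mul_self_sqrt (hG.nonneg _)
  have hg0 : 0 ≤ √(G v v) := Real.sqrt_nonneg _
  have hanti' := hanti v (A v)
  have g1 := f1 v
  have g2 := f2 v
  have g3 := f3 (A v)
  have g3' := f3 (A (A v))
  have g4 := f4 (A v)
  have hdv := hd v
  have hdw := hd (A v)
  have hss0 : 0 ≤ √(S v v) := Real.sqrt_nonneg _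
  have hsa0 : 0 ≤ √(S (A v) (A v)) := Real.sqrt_nonneg _
  have hNw0 : 0 ≤ √(N (A v) (A v)) := Real.sqrt_nonneg _
  have hNw2 : √(N (A v) (A v)) * √(N (A v) (A v)) = N (A v) (A v) :=
    Real.mul_self_sqrt (hN.nonneg _)
  have r1 : √(N v v + s * s * G (A v) (A v)) ≤ √(N v v) + s * √(G (A v) (A v)) := by
    apply Real.sqrt_le_iff.2
    refine ⟨by positivity, ?_⟩
    have e1 : (√(N v v) + s * √(G (A v) (A v))) ^ 2 = √(N v v) * √(N v v)
      + (s * s) * (√(G (A v) (A v)) * √(G (A v) (A v)))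
      + 2 * (√(N v v) * (s * √(G (A v) (A v)))) := by ring
    rw [e1, hn2, ha2]
    have : 0 ≤ √(N v v) * (s * √(G (A v) (A v))) := by positivity
    linarith
  have r2 : √(N (A v) (A v) + s * s * G (A (A v)) (A (A v)))
      ≤ 2 * K * s * √(G (A v) (A v)) := by
    have e0 : √(N (A v) (A v) + s * s * G (A (A v)) (A (A v)))
        ≤ √(N (A v) (A v)) + s * √(G (A (A v)) (A (A v))) := by
      apply Real.sqrt_le_iff.2
      refine ⟨by positivity, ?_⟩
      have e1 : (√(N (A v) (A v)) + s * √(G (A (A v)) (A (A v)))) ^ 2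
          = √(N (A v) (A v)) * √(N (A v) (A v))
            + (s * s) * (√(G (A (A v)) (A (A v))) * √(G (A (A v)) (A (A v))))
            + 2 * (√(N (A v) (A v)) * (s * √(G (A (A v)) (A (A v))))) := by ring
      rw [e1, hNw2, hb2]
      have : 0 ≤ √(N (A v) (A v)) * (s * √(G (A (A v)) (A (A v)))) := by positivity
      linarith
    have e2 : s * √(G (A (A v)) (A (A v))) ≤ s * (K * √(G (A v) (A v))) :=
      mul_le_mul_of_nonneg_left hA2 hs
    calc _ ≤ _ := e0
      _ ≤ K * s * √(G (A v) (A v)) + s * (K * √(G (A v) (A v))) := add_le_add g4 e2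
      _ = 2 * K * s * √(G (A v) (A v)) := by ring
  have r3 : |(G (A v) (A v) + G v (A (A v))) / 2|
      ≤ 5 * K ^ 3 * ((√(N v v) + s * √(G (A v) (A v))) * (2 * K * s * √(G (A v) (A v)))) := by
    refine q2.trans (mul_le_mul_of_nonneg_left ?_ (by positivity))
    exact mul_le_mul r1 r2 (Real.sqrt_nonneg _) (by positivity)
  have hlast : G (A v) (A v) = √(G (A v) (A v)) * √(G (A v) (A v)) := ha2.symm
  have e1 : G (A v) (A v) = (G (A v) (A v) + G v (A (A v))) / 2
        + (G (A v) (A v) - G v (A (A v))) / 2 := by ring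
  have e2 := le_abs_self ((G (A v) (A v) + G v (A (A v))) / 2)
  have e3 := le_abs_self (G (A v) (A v) - G v (A (A v)))
  clear q2 r1 r2
  generalize √(N v v) = n at *
  generalize √(G (A v) (A v)) = a at *
  generalize √(G v v) = g at *
  generalize √(G (A (A v)) (A (A v))) = b at *
  generalize √(S v v) = σ at *
  generalize √(S (A v) (A v)) = σ' at *
  generalize √(S (A (A v)) (A (A v))) = σ'' at *
  generalize √(N (A v) (A v)) = n' at *
  generalize √D = δ at *
  -- the antisymmetric part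
  have s1 : d v * a ≤ K * s * n * a := by
    have : d v ≤ K * s * n := hdv.trans
      (mul_le_mul_of_nonneg_right (mul_le_mul_of_nonneg_left hsD hK0) hn0)
    exact mul_le_mul_of_nonneg_right this ha0
  have s2 : d (A v) * g ≤ K * (K * s * a) * n := by
    calc d (A v) * g ≤ (K * δ * n') * g := mul_le_mul_of_nonneg_right hdw hg0
      _ = K * n' * (δ * g) := by ring
      _ ≤ K * (K * s * a) * n := by
        apply mul_le_mul (mul_le_mul_of_nonneg_left g4 hK0) g1 (by positivity) (by positivity)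
  have s3 : σ' * σ' ≤ s * s * (a * a) := by
    calc σ' * σ' ≤ (s * a) * (s * a) := mul_le_mul g3 g3 hsa0 (by positivity)
      _ = s * s * (a * a) := by ring
  have s4 : σ'' * σ ≤ s * (K * a) * n := by
    apply mul_le_mul (g3'.trans (mul_le_mul_of_nonneg_left hA2 hs)) g2 hss0 (by positivity)
  have s5 : |G (A v) (A v) - G v (A (A v))|
      ≤ K * (K * s * n * a + K * (K * s * a) * n) + K * (s * s * (a * a) + s * (K * a) * n) :=
    hanti'.trans (add_le_add (mul_le_mul_of_nonneg_left (add_le_add s1 s2) hK0)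
      (mul_le_mul_of_nonneg_left (add_le_add s3 s4) hK0))
  have s6 : a * a ≤ 5 * K ^ 3 * ((n + s * a) * (2 * K * s * a))
      + (K * (K * s * n * a + K * (K * s * a) * n)
        + K * (s * s * (a * a) + s * (K * a) * n)) / 2 := by
    have e4 := le_abs_self ((G (A v) (A v) + G v (A (A v))) / 2)
    linarith
  exact num2 hK hn0 ha0 hs s6 hsmall

end Vale.Agent.P242.H100
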