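import Vale.Agent.P242.H100.H5a
import Vale.Agent.P242.H771.Sub
import Vale.Agent.P242.H196.NuD

/-! P242, package A-H5 (helper100): `SB_Vx`, `SB_RR`, `SB_Rel`, the near isometry and the forms of
A-H234 give (h5) at the levels. -/

set_option linter.all false

open MeasureTheory Filter Topology Set Metric
open scoped ENNReal NNReal InnerProductSpace

universe u

namespace Vale.Agent.P242.H100

open Vale.Agent.P233 Vale.Agent.P233.RA Vale.Agent.P242.H990 Vale.Agent.P242.H71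
open Vale.Agent.P242.H655 Vale.Agent.P242.H771
open Vale.Agent.P242.H852 (tl)

section mono

variable {M : Type u} [MetricSpace M] [MeasurableSpace M] {m : Measure M} {n : ℕ} {K : ℝ}
  {p : ℝ → M → M → ℝ} {Q A₀ Λ B B' ρ r₀ : ℝ} {u : Fin n → M →ₘ[m] ℝ} {uu : M → E n}

theorem E4Out.mono {y : M} {𝒜 : ℕ → E n →ₗ[ℝ] E n} {cc : ℕ → E n → ℝ} (hr : 0 < r₀) (hΛ : 0 < Λ)
    (hB : B ≤ B') (h : E4Out m K p u uu Q A₀ Λ B ρ r₀ y 𝒜 cc) :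
    E4Out m K p u uu Q A₀ Λ B' ρ r₀ y 𝒜 cc := by
  have hrr : ∀ k, 0 ≤ rr r₀ Λ k := fun k => by unfold rr; positivity
  refine ⟨fun k v => (h.err k v).trans ?_, fun k v => (h.step k v).trans ?_,
    fun k v => (h.bd k v).trans ?_, fun k v => (h.const k v).trans ?_⟩
  · have h1 : 0 ≤ xE m K p u Q A₀ ρ (rr r₀ Λ k ^ 2) y v :=
      mul_nonneg (Real.sqrt_nonneg _) (Real.sqrt_nonneg _)
    exact mul_le_mul_of_nonneg_right (mul_le_mul_of_nonneg_right hB (hrr k)) h1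
  · exact mul_le_mul_of_nonneg_right hB (mul_nonneg (Real.sqrt_nonneg _) (Real.sqrt_nonneg _))
  · exact mul_le_mul_of_nonneg_right hB (Real.sqrt_nonneg _)
  · refine mul_le_mul_of_nonneg_right (mul_le_mul_of_nonneg_right
      (mul_le_mul_of_nonneg_right hB (hrr k)) (Real.sqrt_nonneg _)) (Real.sqrt_nonneg _)

theorem RRAt.mono {t : ℝ} {x q : M} {c : E n} {c₀ : ℝ} (ht : 0 ≤ t)
    (hD : 0 ≤ Dt m n K p Q A₀ ρ t x + Dt m n K p Q A₀ ρ t q) (hB : B ≤ B')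
    (h : RRAt m K p u Λ Q A₀ ρ B t x q c c₀) : RRAt m K p u Λ Q A₀ ρ B' t x q c c₀ := by
  refine ⟨h.r1.trans ?_, h.r1'.trans ?_, fun s hs hs' => (h.r2 s hs hs').trans ?_⟩
  · exact mul_le_mul_of_nonneg_right hB (mul_nonneg ht (Real.sqrt_nonneg _))
  · exact mul_le_mul_of_nonneg_right hB (mul_nonneg ht hD)
  · exact mul_le_mul_of_nonneg_right hB hD

end mono

section conv

variable {M : Type u} [MetricSpace M] [CompleteSpace M] [SecondCountableTopology M]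
  [MeasurableSpace M] [BorelSpace M] {m : Measure M} {n : ℕ} {K A : ℝ} {o : M} {p : ℝ → M → M → ℝ}

/-- `Blk_Near` in the order of constants of `Sub` -/
theorem near_ev (bN : Blk_Near.{u}) (h : Env m n K o A p) {C₀ : ℝ} (hC₀ : 1 ≤ C₀) :
    EvO fun Q R Λ => EvI fun A₀ M' ε η δ ρ => ∀ (u : Fin n → M →ₘ[m] ℝ) (uu : M → E n),
      Cfg m n K o p R Q η ρ u uu → TT m K o p (R / 2) Q ε ρ u →
        NearIso m o p (R / 4) C₀ 1 ρ u uu := by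
  obtain ⟨Q₀, hQ₀, h1⟩ := bN M m n K o A p h C₀ hC₀
  refine ⟨Q₀, hQ₀, fun Q hQ => ?_⟩
  obtain ⟨R₀, hR₀, h2⟩ := h1 Q hQ
  refine ⟨R₀, hR₀, fun R hR => ⟨16, le_rfl, fun Λ hΛ => ?_⟩⟩
  obtain ⟨ε₁, hε₁, h3⟩ := h2 R hR 1 one_pos
  refine ⟨ε₁, hε₁, fun A₀ h4 h5 => ⟨1, le_rfl, fun M' hM' => ⟨ε₁, hε₁, ?_⟩⟩⟩
  intro ε η δ ρ h6 h7 h8 h9 h10 h11 u uu hc hT
  exact (h3 ε η ρ h6 h7 h8 h9 h11 u uu hc hT).1

/-- `Blk_H234` in the order of constants of `Sub` -/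
theorem hf_ev (bH : Blk_H234.{u}) (h : Env m n K o A p) {C₀ : ℝ} (hC₀ : 1 ≤ C₀) :
    EvO fun Q R Λ => ∃ C₁, 1 ≤ C₁ ∧ ∃ B, 1 ≤ B ∧ EvI fun A₀ M' ε η δ ρ =>
      ∀ (u : Fin n → M →ₘ[m] ℝ) (uu : M → E n),
      Cfg m n K o p R Q η ρ u uu → TT m K o p (R / 2) Q ε ρ u →
        HF m K o p (R / 4) Q A₀ C₀ C₁ Λ B 1 ρ u := by
  obtain ⟨Q₀, hQ₀, h1⟩ := bH M m n K o A p h C₀ hC₀
  refine ⟨Q₀, hQ₀, fun Q hQ => ?_⟩
  obtain ⟨R₀, hR₀, h2⟩ := h1 Q hQ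
  refine ⟨R₀, hR₀, fun R hR => ⟨16, le_rfl, fun Λ hΛ => ?_⟩⟩
  obtain ⟨C₁, hC₁, h3⟩ := h2 R hR
  obtain ⟨B, hB, h4⟩ := h3 Λ hΛ
  obtain ⟨ε₁, hε₁, h5⟩ := h4 1 one_pos
  refine ⟨C₁, hC₁, B, hB, ε₁, hε₁, fun A₀ h6 h7 => ⟨1, le_rfl, fun M' hM' => ?_⟩⟩
  obtain ⟨η₁, hη₁, h8⟩ := h5 A₀ h6 h7
  refine ⟨η₁, hη₁, ?_⟩
  intro ε η δ ρ g1 g2 g3 g4 g5 g6 u uu hc hT
  exact h8 ε η ρ g1 g2 g3 g4 g6 u uu hc hT

/-- (h5) at one pair and one level from the facts at the two vertices -/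
theorem h5_level (h : Env m n K o A p) {C₀ C₁ BV BR BL BF Q R Λ A₀ ε η ρ θ k₀ : ℝ}
    {u : Fin n → M →ₘ[m] ℝ} {uu : M → E n} (hC₀ : 1 ≤ C₀) (hC₁ : 1 ≤ C₁) (hBV : 1 ≤ BV)
    (hBR : 1 ≤ BR) (hBL : 1 ≤ BL) (hQ : 1 ≤ Q) (hR : 1 ≤ R) (hΛ : 16 ≤ Λ) (hA₀ : 0 < A₀) (hθ : 0 < θ)
    (hεθ : ε ≤ θ) (hk2 : 2 ≤ k₀) (hkV : BV ≤ k₀) (hkR : BR ≤ k₀) (hkL : BL ≤ k₀)
    (hk0 : (2 * C₀) ^ 2 ≤ k₀) (hk1 : C₁ ^ 2 ≤ k₀) (hk3 : 1 + C₁ * C₀ ≤ k₀)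
    (hsm : 4096 * k₀ ^ 15 * θ ≤ 1)
    (hc : Cfg m n K o p R Q η ρ u uu) (hT : TT m K o p (R / 2) Q ε ρ u)
    (hN : NearIso m o p (R / 4) C₀ 1 ρ u uu) (hF : HF m K o p (R / 4) Q A₀ C₀ C₁ Λ BF 1 ρ u)
    {x q : M} (hx : x ∈ ball o (R / 4 * ρ)) (hq : q ∈ ball o (R / 4 * ρ)) {r₀ : ℝ}
    (hr : 0 < r₀) (hr' : r₀ ≤ ρ) {k : ℕ} (hd : dist x q ≤ C₀ * rr r₀ Λ k)
    {𝒜x 𝒜q : ℕ → E n →ₗ[ℝ] E n}
    (hVx : VxAt m K p u Q A₀ ρ BV θ (tl r₀ Λ k) x (𝒜x k))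
    (hVq : VxAt m K p u Q A₀ ρ BV θ (tl r₀ Λ k) q (𝒜q k))
    {c : E n} {c₀ : ℝ} (hRR : RRAt m K p u Λ Q A₀ ρ BR (tl r₀ Λ k) x q c c₀)
    {c' : E n} (hw : ∀ w : E n, Gm m p u (tl r₀ Λ k) x c' w = ⟪w, uu x - uu q⟫_ℝ)
    (hRel : ∀ v : E n, |Gm m p u (tl r₀ Λ k) x c v - Gm m p u (tl r₀ Λ k) x c' v
          - Gm m p u (tl r₀ Λ k) x c' (𝒜q k v)|
        ≤ BL * (rr r₀ Λ k * (√(Dt m n K p Q A₀ ρ (tl r₀ Λ k) x + Dt m n K p Q A₀ ρ (tl r₀ Λ k) q)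
          * nG m p u (tl r₀ Λ k) x v))) :
    Nt m K p u Q A₀ ρ (1 / 4) (tl r₀ Λ k) x c' c' ≤ 640 * k₀ ^ 10 * (tl r₀ Λ k *
        (Dt m n K p Q A₀ ρ (tl r₀ Λ k) x + Dt m n K p Q A₀ ρ (tl r₀ Λ k) q)) := by
  have hΛ0 : 0 < Λ := by linarith
  have hρ : 0 < ρ := hc.ρ_pos
  have hrr : 0 < rr r₀ Λ k := by unfold rr; positivity
  have hrrle : rr r₀ Λ k ≤ r₀ := by
    unfold rr
    exact div_le_self hr.le (one_le_pow₀ (by linarith))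
  have et : tl r₀ Λ k = rr r₀ Λ k ^ 2 := rfl
  set t := tl r₀ Λ k with htdef
  have ht : 0 < t := by rw [et]; positivity
  have hst : √t = rr r₀ Λ k := by rw [et]; exact Real.sqrt_sq hrr.le
  have htρ : t ≤ ρ ^ 2 := by
    rw [et]
    exact pow_le_pow_left₀ hrr.le (hrrle.trans hr') 2
  have htQ : t ≤ Q * ρ ^ 2 := by nlinarith [sq_nonneg ρ]
  have hd' : dist x q ≤ C₀ * √t := by rw [hst]; exact hd
  have fH : H155.FH m K p u := fhC h hc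
  have hDx : 0 ≤ Dt m n K p Q A₀ ρ t x := H196.Dt_nonneg h hA₀.le ht htQ
  have hDq : 0 ≤ Dt m n K p Q A₀ ρ t q := H196.Dt_nonneg h hA₀.le ht htQ
  have hxR : x ∈ ball o (R / 2 * ρ) := by
    rw [mem_ball] at hx ⊢
    have : R / 4 * ρ ≤ R / 2 * ρ := mul_le_mul_of_nonneg_right (by linarith) hρ.le
    linarith
  have hk0' : 0 ≤ k₀ := by linarith
  have eg : ∀ v, Gm m p u t x ((√t)⁻¹ • c) v = (√t)⁻¹ * Gm m p u t x c v := fun v =>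
    fH.Gm_smul _ _ _
  have hs0 : 0 < √t := by rw [hst]; exact hrr
  have hP : H200.PIn m K p Q A₀ ρ t u uu x q k₀ θ (2 * C₀) (𝒜q k) ((√t)⁻¹ • c) :=
    { rel := by
        intro v
        have h1 := hRel v
        rw [hw v, hw (𝒜q k v), ← hst] at h1
        have e1 : Gm m p u t x ((√t)⁻¹ • c) v - (√t)⁻¹ * (⟪v, uu x - uu q⟫_ℝ
              + ⟪𝒜q k v, uu x - uu q⟫_ℝ)
            = (√t)⁻¹ * (Gm m p u t x c v - ⟪v, uu x - uu q⟫_ℝ - ⟪𝒜q k v, uu x - uu q⟫_ℝ) := by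
          rw [eg v]; ring
        rw [e1, abs_mul, abs_of_pos (inv_pos.2 hs0)]
        refine (mul_le_mul_of_nonneg_left h1 (inv_nonneg.2 hs0.le)).trans ?_
        have e2 : (√t)⁻¹ * (BL * (√t * (√(Dt m n K p Q A₀ ρ t x + Dt m n K p Q A₀ ρ t q)
              * nG m p u t x v)))
            = BL * √(Dt m n K p Q A₀ ρ t x + Dt m n K p Q A₀ ρ t q) * √(Gm m p u t x v v) := by
          unfold nG
          field_simp
        rw [e2]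
        exact mul_le_mul_of_nonneg_right (mul_le_mul_of_nonneg_right hkL (Real.sqrt_nonneg _))
          (Real.sqrt_nonneg _)
      r2 := by
        have h1 := hRR.r2 t (div_le_self ht.le (one_le_pow₀ (by linarith))) le_rfl
        rw [fH.gm_smul ht, fH.gm_symm, fH.gm_smul ht]
        have e1 : t * ((√t)⁻¹ * ((√t)⁻¹ * gm m K p u t x c c)) = gm m K p u t x c c := by
          have : t * ((√t)⁻¹ * (√t)⁻¹) = 1 := by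
            rw [← mul_inv, Real.mul_self_sqrt ht.le, mul_inv_cancel₀ ht.ne']
          calc t * ((√t)⁻¹ * ((√t)⁻¹ * gm m K p u t x c c))
              = t * ((√t)⁻¹ * (√t)⁻¹) * gm m K p u t x c c := by ring
            _ = _ := by rw [this, one_mul]
        rw [e1]
        exact h1.trans (mul_le_mul_of_nonneg_right hkR (add_nonneg hDx hDq))
      e6 := fun v => (hVx.e6 v).trans (mul_le_mul_of_nonneg_right hkV
        (add_nonneg (mul_nonneg ht.le (fH.gm_nonneg ht v)) (mul_nonneg hDx (fH.Gm_nonneg ht v))))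
      anti := by
        intro v w
        refine (hVq.anti v w).trans ?_
        rw [mul_assoc k₀, mul_assoc k₀]
        refine add_le_add ?_ ?_
        · exact mul_le_mul_of_nonneg_right hkV (mul_nonneg (Real.sqrt_nonneg _)
            (add_nonneg (mul_nonneg (Real.sqrt_nonneg _) (Real.sqrt_nonneg _))
              (mul_nonneg (Real.sqrt_nonneg _) (Real.sqrt_nonneg _))))
        · exact mul_le_mul_of_nonneg_right hkV (mul_nonneg (Real.sqrt_nonneg _)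
            (add_nonneg (mul_nonneg (Real.sqrt_nonneg _) (Real.sqrt_nonneg _))
              (mul_nonneg (Real.sqrt_nonneg _) (Real.sqrt_nonneg _))))
      abd := by
        intro v
        refine (hVq.bd v).trans ?_
        rw [mul_assoc k₀]
        exact mul_le_mul_of_nonneg_right hkV (mul_nonneg (Real.sqrt_nonneg _) (Real.sqrt_nonneg _))
      lip := fun v => lip_of_near fH hN hx ht htρ hd' hw v }
  have key := H200.h5_pair hF hx hq ht htρ hd' (by linarith) (by linarith) le_rfl hDx hDq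
    (symBil_gm fH ht x) (fun v => fH.gm_nonneg ht v)
    (fun v => Nt_mono fH hA₀.le ht htρ hQ (by norm_num) (by norm_num) q v) hP
    (fun v => (hT x hxR t ht htQ v).trans
      (mul_le_mul_of_nonneg_right hεθ (fH.Gm_nonneg ht v))) hθ.le (by linarith)
    hk2 le_rfl hk0 hk1 hk3 hk0' hsm hw
  calc _ ≤ _ := key
    _ = _ := by ring

theorem consts {C₀ C₁ BV BR BL : ℝ} (hC₀ : 1 ≤ C₀) (hC₁ : 1 ≤ C₁) (hBV : 1 ≤ BV)
    (hBR : 1 ≤ BR) (hBL : 1 ≤ BL) : ∃ k₀ θ : ℝ, 2 ≤ k₀ ∧ BV ≤ k₀ ∧ BR ≤ k₀ ∧ BL ≤ k₀ ∧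
      (2 * C₀) ^ 2 ≤ k₀ ∧ C₁ ^ 2 ≤ k₀ ∧ 1 + C₁ * C₀ ≤ k₀ ∧ 1 ≤ 640 * k₀ ^ 10 ∧ 0 < θ ∧
      4096 * k₀ ^ 15 * θ ≤ 1 := by
  obtain ⟨k₀, hk₀⟩ : ∃ k₀ : ℝ, k₀ = 2 + BV + BR + BL + (2 * C₀) ^ 2 + C₁ ^ 2 + (1 + C₁ * C₀) :=
    ⟨_, rfl⟩
  have p1 : 0 ≤ (2 * C₀) ^ 2 := sq_nonneg _
  have p2 : 0 ≤ C₁ ^ 2 := sq_nonneg _
  have p3 : 0 ≤ C₁ * C₀ := by positivity
  have hk0 : 0 < k₀ := by linarith
  have hk1 : 1 ≤ k₀ ^ 10 := one_le_pow₀ (by linarith)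
  have hk2 : 0 < k₀ ^ 15 := pow_pos hk0 15
  refine ⟨k₀, (4096 * k₀ ^ 15)⁻¹, by linarith, by linarith, by linarith, by linarith, by linarith,
    by linarith, by linarith, by linarith, by positivity, ?_⟩
  have : 4096 * k₀ ^ 15 ≠ 0 := by positivity
  rw [mul_inv_cancel₀ this]

/-- **A-H5.** -/
theorem sb_h5 (bN : Blk_Near.{u}) (bH : Blk_H234.{u}) (h : Env m n K o A p)
    (hV : SB_Vx m n K o p) (hR : SB_RR m n K o p) (hL : SB_Rel m n K o p) : SB_H5 m n K o p := by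
  intro C₀ hC₀
  have hall := ((((near_ev bN h hC₀).and (hf_ev bH h hC₀)).and hV).and (hR C₀ hC₀)).and
    ((hL C₀ hC₀).and (EvO.thr 1 (fun _ => 1) (fun _ _ => 16)))
  refine hall.mono ?_
  rintro Q R Λ ⟨⟨⟨⟨hN, C₁, hC₁, BF, hBF, hF⟩, BV, hBV, hV⟩, BR, hBR, hRR⟩, hRel,
    ⟨⟨hQ, -⟩, ⟨hR1, -⟩, ⟨hΛ, -⟩⟩⟩
  obtain ⟨BL, hBL, hRel⟩ := hRel (max BV BR) (le_max_of_le_left hBV)
  obtain ⟨k₀, θ, q1, q2, q3, q4, q5, q6, q7, q8, hθ, hsm⟩ := consts hC₀ hC₁ hBV hBR hBL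
  refine ⟨640 * k₀ ^ 10, ?_, ?_⟩
  · exact q8
  have hin := ((hN.and hF).and (hV θ hθ)).and ((hRR.and hRel).and
    (EvI.thr hθ (fun _ => 1) (c := fun _ _ => 1) (fun _ _ _ _ => one_pos)))
  refine hin.mono ?_
  rintro A₀ M' ε η δ ρ ⟨⟨⟨hN, hF⟩, hV⟩, ⟨hRR, hRel⟩, ⟨hA₀, -⟩, ⟨hM', -⟩, ⟨hε, hεθ⟩, -, -, -⟩
  intro u uu hc hD hT x hx q hq r₀ hr hr' k hk hd c' hw
  have hρ : 0 < ρ := hc.ρ_pos
  have hM0 : 0 < M' := by linarith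
  have hr0 : 0 < r₀ := lt_of_lt_of_le (by positivity) hr
  have hsM : 1 ≤ √M' := Real.one_le_sqrt.2 hM'
  have hrρ : r₀ ≤ ρ := hr'.trans (div_le_self hρ.le hsM)
  have hΛ0 : 0 < Λ := by linarith
  obtain ⟨𝒜x, ccx, hEx, hVx⟩ := hV u uu hc hD hT x hx r₀ hr hr'
  obtain ⟨𝒜q, ccq, hEq, hVq⟩ := hV u uu hc hD hT q hq r₀ hr hr'
  have hrr : 0 < rr r₀ Λ k := by unfold rr; positivity
  have hrrle : rr r₀ Λ k ≤ r₀ := by
    unfold rr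
    exact div_le_self hr0.le (one_le_pow₀ (by linarith))
  have ht : 0 < tl r₀ Λ k := by
    show 0 < rr r₀ Λ k ^ 2
    positivity
  have htM : tl r₀ Λ k ≤ ρ ^ 2 / M' := by
    show rr r₀ Λ k ^ 2 ≤ ρ ^ 2 / M'
    calc rr r₀ Λ k ^ 2 ≤ (ρ / √M') ^ 2 := pow_le_pow_left₀ hrr.le (hrrle.trans hr') 2
      _ = ρ ^ 2 / M' := by rw [div_pow, Real.sq_sqrt hM0.le]
  have htρ : tl r₀ Λ k ≤ ρ ^ 2 := htM.trans (div_le_self (sq_nonneg _) hM')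
  have htQ : tl r₀ Λ k ≤ Q * ρ ^ 2 := by nlinarith [sq_nonneg ρ]
  have hst : √(tl r₀ Λ k) = rr r₀ Λ k := Real.sqrt_sq hrr.le
  obtain ⟨c, c₀, hc1⟩ := hRR u uu hc hD hT x hx q hq _ ht htM (by rw [hst]; exact hd)
  have hDx : 0 ≤ Dt m n K p Q A₀ ρ (tl r₀ Λ k) x := H196.Dt_nonneg h hA₀.le ht htQ
  have hDq : 0 ≤ Dt m n K p Q A₀ ρ (tl r₀ Λ k) q := H196.Dt_nonneg h hA₀.le ht htQ
  have hrel := hRel u uu hc hD hT x hx q hq r₀ hr hr' k hk hd c c₀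
    (RRAt.mono ht.le (add_nonneg hDx hDq) (le_max_right _ _) hc1) 𝒜x 𝒜q ccx ccq
    (E4Out.mono hr0 hΛ0 (le_max_left _ _) hEx) (E4Out.mono hr0 hΛ0 (le_max_left _ _) hEq) c' hw
  exact h5_level h hC₀ hC₁ hBV hBR hBL hQ hR1 hΛ hA₀ hθ hεθ q1 q2 q3 q4 q5 q6 q7 hsm hc hT
    (hN u uu hc hT) (hF u uu hc hT) hx hq hr0 hrρ hd (hVx k) (hVq k) hc1 hw hrel

end conv

end Vale.Agent.P242.H100
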