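import Vale.Agent.P242.H200.H5Pair
import Vale.Agent.P242.H155.Forms
import Vale.Agent.P242.H924.Base

/-! P242, package A-H5 (helper100): small facts on the forms, for the assembly of (h5). -/

set_option linter.all false

open MeasureTheory Filter Topology Set Metric
open scoped ENNReal NNReal InnerProductSpace

universe u

namespace Vale.Agent.P242.H100

open Vale.Agent.P233 Vale.Agent.P233.RA Vale.Agent.P242.H990 Vale.Agent.P242.H71

variable {M : Type u} [MetricSpace M] [CompleteSpace M] [SecondCountableTopology M]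
  [MeasurableSpace M] [BorelSpace M] {m : Measure M} {n : ℕ} {K A : ℝ} {o : M} {p : ℝ → M → M → ℝ}
  {R Q η ρ A₀ : ℝ} {u : Fin n → M →ₘ[m] ℝ} {uu : M → E n}

theorem fh (h : Env m n K o A p) (ht : ∀ i, u i ∈ (sob m).TestI) : H155.FH m K p u := by
  have f := H924.facts h.hyp
  refine ⟨f.gam, ?_, fun x => H924.cen f.gam h x, ht⟩
  exact f.gam.bei f.npos (f.gam.be_mono f.npos (neg_abs_le K) f.be)

theorem fhC (h : Env m n K o A p) (hc : Cfg m n K o p R Q η ρ u uu) : H155.FH m K p u := fh h hc.test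

theorem symBil_gm (h : H155.FH m K p u) {t : ℝ} (ht : 0 < t) (x : M) : SymBil (gm m K p u t x) :=
  ⟨fun c d => h.gm_symm c d, fun a b d => h.gm_add ht a b d, fun r a d => h.gm_smul ht r a d⟩

theorem symBil_Gm (h : H155.FH m K p u) {t : ℝ} (ht : 0 < t) (x : M) : SymBil (Gm m p u t x) :=
  ⟨fun c d => h.Gm_symm c d, fun a b d => h.Gm_add ht a b d, fun r a d => h.Gm_smul r a d⟩

/-- `N^{3/8} ≤ N^{1/4}` -/
theorem Nt_mono (h : H155.FH m K p u) (hA₀ : 0 ≤ A₀) {t e e' : ℝ} (ht : 0 < t) (htρ : t ≤ ρ ^ 2)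
    (hQ : 1 ≤ Q) (he : 0 ≤ e) (hee : e ≤ e') (x : M) (c : E n) :
    Nt m K p u Q A₀ ρ e' t x c c ≤ Nt m K p u Q A₀ ρ e t x c c := by
  have hρ : 0 < ρ ^ 2 := lt_of_lt_of_le ht htρ
  have htQ : t ≤ Q * ρ ^ 2 := by nlinarith
  unfold Nt
  refine add_le_add ?_ ?_
  · by_cases hi : IntervalIntegrable (fun s => (t / s) ^ e * gm m K p u s x c c) volume t (Q * ρ ^ 2)
    · rw [intervalIntegral.integral_of_le htQ, intervalIntegral.integral_of_le htQ]
      refine integral_mono_of_nonneg ?_ ((intervalIntegrable_iff_integrableOn_Ioc_of_le htQ).1 hi) ?_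
      · filter_upwards [self_mem_ae_restrict measurableSet_Ioc] with s hs
        have hs0 : 0 < s := ht.trans hs.1
        exact mul_nonneg (Real.rpow_nonneg (by positivity) _) (h.gm_nonneg hs0 c)
      · filter_upwards [self_mem_ae_restrict measurableSet_Ioc] with s hs
        have hs0 : 0 < s := ht.trans hs.1
        refine mul_le_mul_of_nonneg_right ?_ (h.gm_nonneg hs0 c)
        exact Real.rpow_le_rpow_of_exponent_ge (by positivity) ((div_le_one hs0).2 hs.1.le) hee
    · have hi' : ¬ IntervalIntegrable (fun s => (t / s) ^ e' * gm m K p u s x c c) volume t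
          (Q * ρ ^ 2) := by
        intro hcon
        apply hi
        have hc : ContinuousOn (fun s : ℝ => (t / s) ^ (e - e')) (uIcc t (Q * ρ ^ 2)) := by
          rw [uIcc_of_le htQ]
          intro s hs
          have hs0 : 0 < s := ht.trans_le hs.1
          refine ContinuousWithinAt.rpow_const ?_ (Or.inl (by positivity))
          exact continuousWithinAt_const.div continuousWithinAt_id hs0.ne'
        have h2 := hcon.continuousOn_mul hc
        refine h2.congr ?_
        intro s hs
        rw [uIoc_of_le htQ] at hs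
        have hs0 : 0 < s := ht.trans hs.1
        show (t / s) ^ (e - e') * ((t / s) ^ e' * gm m K p u s x c c) = _
        rw [← mul_assoc, ← Real.rpow_add (by positivity)]
        congr 2
        ring
      rw [intervalIntegral.integral_undef hi, intervalIntegral.integral_undef hi']
  · have h1 : (t / ρ ^ 2) ^ e' ≤ (t / ρ ^ 2) ^ e :=
      Real.rpow_le_rpow_of_exponent_ge (by positivity) ((div_le_one hρ).2 htρ) hee
    have h2 : 0 ≤ ⟪c, c⟫_ℝ := real_inner_self_nonneg
    exact mul_le_mul_of_nonneg_right (mul_le_mul_of_nonneg_left h1 hA₀) h2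

/-- the Lipschitz bound at one pair from the near isometry -/
theorem lip_of_near {R' C₀ ε : ℝ} (h : H155.FH m K p u) (hN : NearIso m o p R' C₀ ε ρ u uu)
    {x q : M} (hx : x ∈ ball o (R' * ρ)) {t : ℝ} (ht : 0 < t) (htρ : t ≤ ρ ^ 2)
    (hd : dist x q ≤ C₀ * √t) {w : E n} (hw : ∀ v, Gm m p u t x w v = ⟪v, uu x - uu q⟫_ℝ) (v : E n) :
    |⟪v, uu x - uu q⟫_ℝ| ≤ 2 * C₀ * √t * √(Gm m p u t x v v) := by
  have h1 := (hN x hx t ht htρ q hd w hw).2
  rw [← hw v]
  refine (h.Gm_cs ht w v).trans ?_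
  refine mul_le_mul_of_nonneg_right ?_ (Real.sqrt_nonneg _)
  rw [hw w]
  linarith

end Vale.Agent.P242.H100
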