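import Mathlib.Analysis.SpecialFunctions.Sqrt
import Mathlib.Algebra.BigOperators.Intervals
import Mathlib.Tactic.Linarith
import Mathlib.Tactic.Positivity

/-! P242, package A-E6P: geometric memories `mem r f k = Σ_{i≤k} r^{k-i} f i`. -/

open Finset

namespace Vale.Agent.P242.H100

/-- `mem r f k = ∑_{i ≤ k} r^{k-i} f i` -/
noncomputable def mem (r : ℝ) (f : ℕ → ℝ) : ℕ → ℝ
  | 0 => f 0
  | k + 1 => r * mem r f k + f (k + 1)

@[simp] theorem mem_zero (r : ℝ) (f : ℕ → ℝ) : mem r f 0 = f 0 := rfl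

theorem mem_succ (r : ℝ) (f : ℕ → ℝ) (k : ℕ) :
    mem r f (k + 1) = r * mem r f k + f (k + 1) := rfl

theorem mem_eq_sum (r : ℝ) (f : ℕ → ℝ) (k : ℕ) :
    mem r f k = ∑ i ∈ range (k + 1), r ^ (k - i) * f i := by
  induction k with
  | zero => simp
  | succ k ih =>
    rw [mem_succ, ih, sum_range_succ (fun i => r ^ (k + 1 - i) * f i) (k + 1), mul_sum]
    congr 1
    · refine sum_congr rfl fun i hi => ?_
      have h : i ≤ k := Nat.lt_succ_iff.1 (mem_range.1 hi)
      rw [Nat.succ_sub h, pow_succ]; ring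
    · simp

theorem mem_nonneg {r : ℝ} (hr : 0 ≤ r) {f : ℕ → ℝ} {k : ℕ} (hf : ∀ i ≤ k, 0 ≤ f i) :
    0 ≤ mem r f k := by
  induction k with
  | zero => exact hf 0 le_rfl
  | succ k ih =>
    rw [mem_succ]
    exact add_nonneg (mul_nonneg hr (ih fun i hi => hf i (hi.trans (Nat.le_succ k))))
      (hf (k + 1) le_rfl)

theorem mem_mono {r : ℝ} (hr : 0 ≤ r) {f g : ℕ → ℝ} {k : ℕ} (h : ∀ i ≤ k, f i ≤ g i) :
    mem r f k ≤ mem r g k := by
  induction k with
  | zero => exact h 0 le_rfl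
  | succ k ih =>
    rw [mem_succ, mem_succ]
    exact add_le_add (mul_le_mul_of_nonneg_left (ih fun i hi => h i (hi.trans (Nat.le_succ k))) hr)
      (h (k + 1) le_rfl)

theorem mem_add (r : ℝ) (f g : ℕ → ℝ) (k : ℕ) :
    mem r (fun i => f i + g i) k = mem r f k + mem r g k := by
  induction k with
  | zero => rfl
  | succ k ih => rw [mem_succ, mem_succ, mem_succ, ih]; ring

theorem mem_smul (r a : ℝ) (f : ℕ → ℝ) (k : ℕ) :
    mem r (fun i => a * f i) k = a * mem r f k := by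
  induction k with
  | zero => rfl
  | succ k ih => rw [mem_succ, mem_succ, ih]; ring

theorem mem_congr {r : ℝ} {f g : ℕ → ℝ} {k : ℕ} (h : ∀ i ≤ k, f i = g i) :
    mem r f k = mem r g k := by
  induction k with
  | zero => exact h 0 le_rfl
  | succ k ih => rw [mem_succ, mem_succ, ih fun i hi => h i (hi.trans (Nat.le_succ k)),
      h (k + 1) le_rfl]

theorem self_le_mem {r : ℝ} (hr : 0 ≤ r) {f : ℕ → ℝ} {k : ℕ} (hf : ∀ i ≤ k, 0 ≤ f i) :
    f k ≤ mem r f k := by
  cases k with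
  | zero => exact le_rfl
  | succ k =>
    rw [mem_succ]
    have := mul_nonneg hr (mem_nonneg hr (f := f) (k := k) fun i hi => hf i (hi.trans (Nat.le_succ k)))
    linarith

/-- a larger ratio gives a larger memory -/
theorem mem_mono_ratio {r s : ℝ} (hr : 0 ≤ r) (hrs : r ≤ s) {f : ℕ → ℝ} {k : ℕ}
    (hf : ∀ i ≤ k, 0 ≤ f i) : mem r f k ≤ mem s f k := by
  induction k with
  | zero => exact le_rfl
  | succ k ih =>
    have h0 : ∀ i ≤ k, 0 ≤ f i := fun i hi => hf i (hi.trans (Nat.le_succ k))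
    have h1 := ih h0
    have h2 := mem_nonneg hr h0
    rw [mem_succ, mem_succ]
    have h3 : r * mem r f k ≤ s * mem s f k :=
      (mul_le_mul_of_nonneg_right hrs h2).trans (mul_le_mul_of_nonneg_left h1 (hr.trans hrs))
    linarith

/-- memory of a geometric sequence: `mem r (q^·) k ≤ 2 r^k` if `q ≤ r/2` -/
theorem mem_pow_le {r q : ℝ} (hq : 0 ≤ q) (hqr : 2 * q ≤ r) (k : ℕ) :
    mem r (fun i => q ^ i) k ≤ 2 * r ^ k := by
  have hr : 0 ≤ r := by linarith
  have key : mem r (fun i => q ^ i) k + q ^ k ≤ 2 * r ^ k := by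
    induction k with
    | zero => simp; norm_num
    | succ k ih =>
      rw [mem_succ, pow_succ, pow_succ]
      have h0 : 0 ≤ q ^ k := pow_nonneg hq k
      nlinarith [mul_le_mul_of_nonneg_left ih hr, mul_le_mul_of_nonneg_right hqr h0]
  have h0 : 0 ≤ q ^ k := pow_nonneg hq k
  linarith

/-- double memory: `mem r (mem q f) ≤ 2 mem r f` if `q ≤ r/2` -/
theorem mem_mem_le {r q : ℝ} (hq : 0 ≤ q) (hqr : 2 * q ≤ r) {f : ℕ → ℝ} {k : ℕ}
    (hf : ∀ i ≤ k, 0 ≤ f i) : mem r (mem q f) k ≤ 2 * mem r f k := by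
  have hr : 0 ≤ r := by linarith
  have key : mem r (mem q f) k + mem q f k ≤ 2 * mem r f k := by
    induction k with
    | zero => simp only [mem_zero]; linarith [hf 0 le_rfl]
    | succ k ih =>
      have h0 : ∀ i ≤ k, 0 ≤ f i := fun i hi => hf i (hi.trans (Nat.le_succ k))
      have ih := ih h0
      have h1 := mem_nonneg hq h0
      rw [mem_succ r (mem q f), mem_succ q f, mem_succ r f]
      nlinarith [mul_le_mul_of_nonneg_left ih hr, mul_le_mul_of_nonneg_right hqr h1]
  have h1 := mem_nonneg hq hf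
  linarith

/-- if `f` grows at most by the factor `q` per step downwards and `r q ≤ 1/2`, the memory is
comparable with the last term -/
theorem mem_le_last {r q : ℝ} (hr : 0 ≤ r) (hrq : r * q ≤ 1 / 2) {f : ℕ → ℝ} {k : ℕ}
    (hf : ∀ i ≤ k, 0 ≤ f i) (h : ∀ i < k, f i ≤ q * f (i + 1)) :
    mem r f k ≤ 2 * f k := by
  induction k with
  | zero => simp only [mem_zero]; linarith [hf 0 le_rfl]
  | succ k ih =>
    have ih := ih (fun i hi => hf i (hi.trans (Nat.le_succ k)))
      (fun i hi => h i (hi.trans (Nat.lt_succ_self k)))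
    have h1 := h k (Nat.lt_succ_self k)
    have h2 := hf (k + 1) le_rfl
    rw [mem_succ]
    have h3 : r * mem r f k ≤ r * (2 * (q * f (k + 1))) :=
      mul_le_mul_of_nonneg_left (ih.trans (by linarith)) hr
    nlinarith [mul_le_mul_of_nonneg_right hrq h2]

/-- decay of the initial value: `b r^k ≤ f k` -/
theorem start_le {r q b : ℝ} (hr : 0 ≤ r) (hrq : r * q ≤ 1) {f : ℕ → ℝ} {k : ℕ}
    (hf : ∀ i ≤ k, 0 ≤ f i) (h : ∀ i < k, f i ≤ q * f (i + 1)) (hb : b ≤ f 0) :
    b * r ^ k ≤ f k := by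
  induction k with
  | zero => simpa using hb
  | succ k ih =>
    have ih := ih (fun i hi => hf i (hi.trans (Nat.le_succ k)))
      (fun i hi => h i (hi.trans (Nat.lt_succ_self k)))
    have h1 := h k (Nat.lt_succ_self k)
    have h2 := hf (k + 1) le_rfl
    calc b * r ^ (k + 1) = (b * r ^ k) * r := by ring
      _ ≤ f k * r := mul_le_mul_of_nonneg_right ih hr
      _ ≤ (q * f (k + 1)) * r := mul_le_mul_of_nonneg_right h1 hr
      _ = (r * q) * f (k + 1) := by ring
      _ ≤ 1 * f (k + 1) := mul_le_mul_of_nonneg_right hrq h2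
      _ = f (k + 1) := one_mul _

/-- one step recursion solved: `x_{k+1} ≤ r x_k + f_{k+1}` gives `x_k ≤ mem r f k` with
`x_0 ≤ f_0` -/
theorem le_mem_of_step {r : ℝ} (hr : 0 ≤ r) {x f : ℕ → ℝ} {k : ℕ} (h0 : x 0 ≤ f 0)
    (h : ∀ i < k, x (i + 1) ≤ r * x i + f (i + 1)) : x k ≤ mem r f k := by
  induction k with
  | zero => exact h0
  | succ k ih =>
    have ih := ih (fun i hi => h i (hi.trans (Nat.lt_succ_self k)))
    rw [mem_succ]
    have := h k (Nat.lt_succ_self k)
    have := mul_le_mul_of_nonneg_left ih hr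
    linarith

/-- Cauchy-Schwarz for memories: if `D i ≤ q D (i+1)` and `4 κ² q ≤ s`, then
`mem κ √(D f) ≤ 2 √(D_k · mem s f k)`. -/
theorem mem_sqrt_le {κ q s : ℝ} (hκ : 0 ≤ κ) (hq : 0 ≤ q) (hs : 0 ≤ s) (h4 : 4 * κ ^ 2 * q ≤ s)
    {D f : ℕ → ℝ} {k : ℕ} (hD : ∀ i ≤ k, 0 ≤ D i) (hf : ∀ i ≤ k, 0 ≤ f i)
    (h : ∀ i < k, D i ≤ q * D (i + 1)) :
    mem κ (fun i => √(D i * f i)) k ≤ 2 * √(D k * mem s f k) := by
  induction k with
  | zero =>
    simp only [mem_zero]
    linarith [Real.sqrt_nonneg (D 0 * f 0)]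
  | succ k ih =>
    have hD' : ∀ i ≤ k, 0 ≤ D i := fun i hi => hD i (hi.trans (Nat.le_succ k))
    have hf' : ∀ i ≤ k, 0 ≤ f i := fun i hi => hf i (hi.trans (Nat.le_succ k))
    have ih := ih hD' hf' (fun i hi => h i (hi.trans (Nat.lt_succ_self k)))
    have h1 := h k (Nat.lt_succ_self k)
    have hW := mem_nonneg hs hf'
    have hDk := hD (k + 1) le_rfl
    have hfk := hf (k + 1) le_rfl
    rw [mem_succ, mem_succ]
    have e1 : κ * mem κ (fun i => √(D i * f i)) k ≤ √(D (k + 1) * (s * mem s f k)) := by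
      refine (mul_le_mul_of_nonneg_left ih hκ).trans ?_
      apply Real.le_sqrt_of_sq_le
      have h2 : √(D k * mem s f k) ^ 2 = D k * mem s f k :=
        Real.sq_sqrt (mul_nonneg (hD' k le_rfl) hW)
      calc (κ * (2 * √(D k * mem s f k))) ^ 2 = 4 * κ ^ 2 * (D k * mem s f k) := by
            rw [mul_pow, mul_pow, h2]; ring
        _ ≤ 4 * κ ^ 2 * ((q * D (k + 1)) * mem s f k) := by
            have := mul_le_mul_of_nonneg_right h1 hW
            exact mul_le_mul_of_nonneg_left this (by positivity)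
        _ = (4 * κ ^ 2 * q) * (D (k + 1) * mem s f k) := by ring
        _ ≤ s * (D (k + 1) * mem s f k) :=
            mul_le_mul_of_nonneg_right h4 (mul_nonneg hDk hW)
        _ = D (k + 1) * (s * mem s f k) := by ring
    have e2 : √(D (k + 1) * (s * mem s f k)) ≤ √(D (k + 1) * (s * mem s f k + f (k + 1))) := by
      apply Real.sqrt_le_sqrt
      exact mul_le_mul_of_nonneg_left (by linarith) hDk
    have e3 : √(D (k + 1) * f (k + 1)) ≤ √(D (k + 1) * (s * mem s f k + f (k + 1))) := by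
      apply Real.sqrt_le_sqrt
      have := mul_nonneg hs hW
      exact mul_le_mul_of_nonneg_left (by linarith) hDk
    linarith

end Vale.Agent.P242.H100
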