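import Vale.Agent.P242.H100.Mem
import Mathlib.Algebra.Module.LinearMap.Defs
import Mathlib.Algebra.QuadraticDiscriminant
import Mathlib.Tactic.Module

/-! P242: nonnegative symmetric bilinear forms `B : E → E → ℝ` on a real vector space. -/

namespace Vale.Agent.P242.H100

variable {E : Type*} [AddCommGroup E] [Module ℝ E]

/-- `B` is bilinear, symmetric and nonnegative. -/
structure PF (B : E → E → ℝ) : Prop where
  add : ∀ u v w, B (u + v) w = B u w + B v w
  smul : ∀ (a : ℝ) u w, B (a • u) w = a * B u w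
  symm : ∀ u v, B u v = B v u
  nonneg : ∀ u, 0 ≤ B u u

namespace PF

variable {B : E → E → ℝ} (h : PF B)

include h

theorem add_right (u v w : E) : B u (v + w) = B u v + B u w := by
  rw [h.symm, h.add, h.symm v, h.symm w]

theorem smul_right (a : ℝ) (u w : E) : B u (a • w) = a * B u w := by
  rw [h.symm, h.smul, h.symm w]

theorem neg (u w : E) : B (-u) w = -B u w := by
  rw [← neg_one_smul ℝ u, h.smul]; ring

theorem neg_right (u w : E) : B u (-w) = -B u w := by
  rw [h.symm, h.neg, h.symm w]

theorem sub (u v w : E) : B (u - v) w = B u w - B v w := by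
  rw [sub_eq_add_neg, h.add, h.neg]; ring

theorem sub_right (u v w : E) : B u (v - w) = B u v - B u w := by
  rw [h.symm, h.sub, h.symm v, h.symm w]

theorem zero (w : E) : B 0 w = 0 := by
  rw [← zero_smul ℝ (0 : E), h.smul]; ring

/-- Cauchy-Schwarz -/
theorem cs (u v : E) : B u v ^ 2 ≤ B u u * B v v := by
  have key : ∀ t : ℝ, 0 ≤ B v v * (t * t) + (2 * B u v) * t + B u u := by
    intro t
    have h1 := h.nonneg (u + t • v)
    rw [h.add, h.add_right, h.add_right, h.smul, h.smul, h.smul_right, h.smul_right,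
      h.symm v u] at h1
    linarith
  have := discrim_le_zero key
  unfold discrim at this
  nlinarith

theorem abs_le (u v : E) : |B u v| ≤ √(B u u) * √(B v v) := by
  rw [← Real.sqrt_mul (h.nonneg u)]
  exact Real.abs_le_sqrt (h.cs u v)

theorem le (u v : E) : B u v ≤ √(B u u) * √(B v v) := (le_abs_self _).trans (h.abs_le u v)

theorem add_le (u v : E) : B (u + v) (u + v) ≤ 2 * B u u + 2 * B v v := by
  have h1 := h.nonneg (u - v)
  rw [h.sub, h.sub_right, h.sub_right, h.symm v u] at h1
  rw [h.add, h.add_right, h.add_right, h.symm v u]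
  linarith

theorem sub_le (u v : E) : B (u - v) (u - v) ≤ 2 * B u u + 2 * B v v := by
  have h1 := h.nonneg (u + v)
  rw [h.add, h.add_right, h.add_right, h.symm v u] at h1
  rw [h.sub, h.sub_right, h.sub_right, h.symm v u]
  linarith

/-- triangle inequality for `√B` -/
theorem sqrt_add_le (u v : E) : √(B (u + v) (u + v)) ≤ √(B u u) + √(B v v) := by
  apply Real.sqrt_le_iff.2
  refine ⟨by positivity, ?_⟩
  have h1 := h.le u v
  rw [h.add, h.add_right, h.add_right, h.symm v u]
  nlinarith [Real.sq_sqrt (h.nonneg u), Real.sq_sqrt (h.nonneg v)]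

theorem sqrt_neg (u : E) : √(B (-u) (-u)) = √(B u u) := by
  rw [h.neg, h.neg_right, neg_neg]

theorem sqrt_sub_le (u v : E) : √(B (u - v) (u - v)) ≤ √(B u u) + √(B v v) := by
  rw [sub_eq_add_neg]
  exact (h.sqrt_add_le u (-v)).trans (by rw [h.sqrt_neg])

theorem const_mul {a : ℝ} (ha : 0 ≤ a) : PF (fun u v => a * B u v) where
  add u v w := by simp only [h.add]; ring
  smul r u w := by simp only [h.smul]; ring
  symm u v := by simp only [h.symm u v]
  nonneg u := mul_nonneg ha (h.nonneg u)

theorem comp {F : Type*} [AddCommGroup F] [Module ℝ F] (A : F →ₗ[ℝ] E) :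
    PF (fun u v : F => B (A u) (A v)) where
  add u v w := by simp only [map_add, h.add]
  smul r u w := by simp only [map_smul, h.smul]
  symm u v := h.symm _ _
  nonneg u := h.nonneg _

theorem sum_forms {B' : E → E → ℝ} (h' : PF B') : PF (fun u v => B u v + B' u v) where
  add u v w := by simp only [h.add, h'.add]; ring
  smul r u w := by simp only [h.smul, h'.smul]; ring
  symm u v := by simp only [h.symm u v, h'.symm u v]
  nonneg u := add_nonneg (h.nonneg u) (h'.nonneg u)

end PF

/-- memory of a sequence of forms -/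
noncomputable def memF (r : ℝ) (S : ℕ → E → E → ℝ) (k : ℕ) (u v : E) : ℝ :=
  mem r (fun i => S i u v) k

theorem PF.mem {r : ℝ} (hr : 0 ≤ r) {S : ℕ → E → E → ℝ} {k : ℕ} (h : ∀ i ≤ k, PF (S i)) :
    PF (memF r S k) := by
  induction k with
  | zero => exact h 0 le_rfl
  | succ k ih =>
    have ih := ih fun i hi => h i (hi.trans (Nat.le_succ k))
    have e : memF r S (k + 1) = fun u v => r * memF r S k u v + S (k + 1) u v := rfl
    rw [e]
    exact (ih.const_mul hr).sum_forms (h (k + 1) le_rfl)

/-- optimisation of the scaling -/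
theorem le_sqrt_mul_of_scale {q a b K : ℝ} (ha : 0 ≤ a) (hb : 0 ≤ b) (hK : 0 ≤ K)
    (h : ∀ t : ℝ, 0 < t → q ≤ K * (t * a + t⁻¹ * b) / 2) : q ≤ K * (√a * √b) := by
  apply le_of_forall_pos_le_add
  intro δ hδ
  -- choose a slightly perturbed optimum
  have hcont : ∀ s : ℝ, 0 < s → q ≤ K * ((√a + s) * (√b + s)) := by
    intro s hs
    have ha' : 0 < √a + s := by positivity
    have hb' : 0 < √b + s := by positivity
    have h1 := h ((√b + s) / (√a + s)) (div_pos hb' ha')
    have e1 : ((√b + s) / (√a + s)) * a ≤ (√b + s) * (√a + s) := by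
      rw [div_mul_eq_mul_div, div_le_iff₀ ha']
      have : a ≤ (√a + s) * (√a + s) := by
        nlinarith [Real.sq_sqrt ha, Real.sqrt_nonneg a]
      calc (√b + s) * a ≤ (√b + s) * ((√a + s) * (√a + s)) :=
            mul_le_mul_of_nonneg_left this hb'.le
        _ = (√b + s) * (√a + s) * (√a + s) := by ring
    have e2 : ((√b + s) / (√a + s))⁻¹ * b ≤ (√b + s) * (√a + s) := by
      rw [inv_div, div_mul_eq_mul_div, div_le_iff₀ hb']
      have : b ≤ (√b + s) * (√b + s) := by
        nlinarith [Real.sq_sqrt hb, Real.sqrt_nonneg b]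
      calc (√a + s) * b ≤ (√a + s) * ((√b + s) * (√b + s)) :=
            mul_le_mul_of_nonneg_left this ha'.le
        _ = (√b + s) * (√a + s) * (√b + s) := by ring
    have e3 : K * ((√b + s) / (√a + s) * a + ((√b + s) / (√a + s))⁻¹ * b)
        ≤ K * (2 * ((√b + s) * (√a + s))) :=
      mul_le_mul_of_nonneg_left (by linarith) hK
    calc q ≤ _ := h1
      _ ≤ K * (2 * ((√b + s) * (√a + s))) / 2 := by linarith
      _ = K * ((√a + s) * (√b + s)) := by ring
  set M := K * (√a + √b + 1) with hM
  have hM0 : 0 ≤ M := by positivity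
  have hs : 0 < min 1 (δ / (M + 1)) := lt_min one_pos (by positivity)
  have h2 := hcont _ hs
  set s := min 1 (δ / (M + 1)) with hs'
  have h3 : s ≤ 1 := min_le_left _ _
  have h4 : s * (M + 1) ≤ δ := by
    have := min_le_right 1 (δ / (M + 1))
    rw [← hs'] at this
    calc s * (M + 1) ≤ δ / (M + 1) * (M + 1) := mul_le_mul_of_nonneg_right this (by positivity)
      _ = δ := div_mul_cancel₀ _ (by positivity)
  have h5 : K * ((√a + s) * (√b + s)) = K * (√a * √b) + s * (K * (√a + √b + s)) := by ring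
  have h6 : K * (√a + √b + s) ≤ M := mul_le_mul_of_nonneg_left (by linarith) hK
  have h7 : s * (K * (√a + √b + s)) ≤ s * M := mul_le_mul_of_nonneg_left h6 hs.le
  nlinarith

/-- a symmetric bilinear form whose quadratic form is bounded by a nonnegative form is bounded as
a bilinear form -/
theorem polar_le {Q : E → E → ℝ} {R : E → E → ℝ} {K : ℝ} (hK : 0 ≤ K) (hR : PF R)
    (hadd : ∀ u v w, Q (u + v) w = Q u w + Q v w) (hsmul : ∀ (a : ℝ) u w, Q (a • u) w = a * Q u w)
    (hsymm : ∀ u v, Q u v = Q v u) (h : ∀ u, |Q u u| ≤ K * R u u) (u v : E) :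
    |Q u v| ≤ K * (√(R u u) * √(R v v)) := by
  have hadd' : ∀ u v w, Q u (v + w) = Q u v + Q u w := by
    intro u v w; rw [hsymm, hadd, hsymm v, hsymm w]
  have hsmul' : ∀ (a : ℝ) u w, Q u (a • w) = a * Q u w := by
    intro a u w; rw [hsymm, hsmul, hsymm w]
  have hneg : ∀ u w, Q (-u) w = -Q u w := by
    intro u w; rw [← neg_one_smul ℝ u, hsmul]; ring
  have hneg' : ∀ u w, Q u (-w) = -Q u w := by
    intro u w; rw [hsymm, hneg, hsymm w]
  -- the basic bound
  have base : ∀ u v, |Q u v| ≤ K * (R u u + R v v) / 2 := by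
    intro u v
    have h1 := h (u + v)
    have h2 := h (u - v)
    have e1 : Q (u + v) (u + v) - Q (u - v) (u - v) = 4 * Q u v := by
      rw [sub_eq_add_neg u v, hadd, hadd', hadd', hadd, hadd', hadd', hneg, hneg, hneg', hneg',
        hsymm v u]
      ring
    have e2 : R (u + v) (u + v) + R (u - v) (u - v) = 2 * (R u u + R v v) := by
      rw [hR.add, hR.add_right, hR.add_right, hR.sub, hR.sub_right, hR.sub_right]
      ring
    have e3 : |4 * Q u v| ≤ K * (2 * (R u u + R v v)) := by
      rw [← e1, ← e2, mul_add]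
      exact (abs_sub _ _).trans (add_le_add h1 h2)
    rw [abs_mul] at e3
    norm_num at e3
    linarith
  apply le_sqrt_mul_of_scale (hR.nonneg u) (hR.nonneg v) hK
  intro t ht
  have hs : 0 < √t := Real.sqrt_pos.2 ht
  have h1 := base (√t • u) ((√t)⁻¹ • v)
  rw [hsmul, hsmul', hR.smul, hR.smul_right, hR.smul, hR.smul_right] at h1
  have e1 : √t * ((√t)⁻¹ * Q u v) = Q u v := by
    rw [← mul_assoc, mul_inv_cancel₀ hs.ne', one_mul]
  have e2 : √t * (√t * R u u) = t * R u u := by
    rw [← mul_assoc, Real.mul_self_sqrt ht.le]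
  have e3 : (√t)⁻¹ * ((√t)⁻¹ * R v v) = t⁻¹ * R v v := by
    rw [← mul_assoc, ← mul_inv, Real.mul_self_sqrt ht.le]
  rw [e1, e2, e3] at h1
  exact h1

end Vale.Agent.P242.H100
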