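import Vale.Agent.P242.H100.PF

/-! P242, package A-H5 (A10 of note 3517), algebraic part: the pair argument. -/

namespace Vale.Agent.P242.H100

variable {E : Type*} [AddCommGroup E] [Module ℝ E]

/-- Core of (h5). `c` = affine part of `(b_q - b_y)/r`, `c'` = `-g(u(q)-u(y))/r`, `A` the matrix at
the vertex `q`, `N` = the value of the memory form at `c'`. -/
theorem pair_core {G S : E → E → ℝ} (hG : PF G) (hS : PF S) (A : E → E) {c c' : E}
    {N D K ε : ℝ} (hK : 1 ≤ K) (hD : 0 ≤ D) (hN : 0 ≤ N) (hε : 0 ≤ ε)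
    (h1 : ∀ v, |G c v - G c' v - G c' (A v)| ≤ K * √D * √(G v v))
    (h2 : S c c ≤ K * D)
    (h3 : ∀ v, |G c' (A v)| ≤ K * (√N + √D) * √(G v v))
    (h4 : ∀ v, S v v ≤ ε * G v v)
    (h5 : N ≤ K * (S c' c' + D * G c' c'))
    (h6 : G c' c' ≤ K) (hsmall : 8 * K ^ 3 * ε ≤ 1) :
    N ≤ 10 * K ^ 2 * D := by
  have hK0 : 0 ≤ K := by linarith
  set v := c - c' with hv
  have hsD0 : 0 ≤ √D := Real.sqrt_nonneg _
  have hsN0 : 0 ≤ √N := Real.sqrt_nonneg _
  have hg0 : 0 ≤ √(G v v) := Real.sqrt_nonneg _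
  have hg2 : √(G v v) * √(G v v) = G v v := Real.mul_self_sqrt (hG.nonneg v)
  have e1 : G v v = (G c v - G c' v - G c' (A v)) + G c' (A v) := by
    rw [hv, hG.sub c c' (c - c')]; ring
  have e2 : G v v ≤ (K * √N + 2 * K * √D) * √(G v v) := by
    have a1 := le_abs_self (G c v - G c' v - G c' (A v))
    have a2 := le_abs_self (G c' (A v))
    have a3 := h1 v
    have a4 := h3 v
    calc G v v = (G c v - G c' v - G c' (A v)) + G c' (A v) := e1
      _ ≤ K * √D * √(G v v) + K * (√N + √D) * √(G v v) := by linarith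
      _ = (K * √N + 2 * K * √D) * √(G v v) := by ring
  have e3 : √(G v v) ≤ K * √N + 2 * K * √D := by
    by_cases h0 : √(G v v) = 0
    · rw [h0]; positivity
    · have hpos : 0 < √(G v v) := lt_of_le_of_ne hg0 (Ne.symm h0)
      rw [← hg2] at e2
      rw [Real.sqrt_mul_self hg0] at e2
      exact le_of_mul_le_mul_right e2 hpos
  have e4 : G v v ≤ 2 * K ^ 2 * N + 8 * K ^ 2 * D := by
    have b1 : √(G v v) * √(G v v) ≤ (K * √N + 2 * K * √D) * (K * √N + 2 * K * √D) :=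
      mul_le_mul e3 e3 hg0 (by positivity)
    have b2 : (K * √N + 2 * K * √D) * (K * √N + 2 * K * √D)
        ≤ 2 * K ^ 2 * (√N * √N) + 8 * K ^ 2 * (√D * √D) := by
      nlinarith [sq_nonneg (K * √N - 2 * K * √D)]
    rw [hg2] at b1
    rw [Real.mul_self_sqrt hN, Real.mul_self_sqrt hD] at b2
    linarith
  have e5 : S c' c' ≤ 2 * (K * D) + 2 * (ε * (2 * K ^ 2 * N + 8 * K ^ 2 * D)) := by
    have b1 : c' = c - v := by rw [hv]; abel
    have b2 := hS.sub_le c v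
    rw [← b1] at b2
    have b3 := h4 v
    have b4 := mul_le_mul_of_nonneg_left e4 hε
    linarith
  have e6 : N ≤ K * ((2 * (K * D) + 2 * (ε * (2 * K ^ 2 * N + 8 * K ^ 2 * D))) + D * K) :=
    h5.trans (mul_le_mul_of_nonneg_left (add_le_add e5 (mul_le_mul_of_nonneg_left h6 hD)) hK0)
  have e7 : 4 * K ^ 3 * ε * N ≤ 1 / 2 * N := mul_le_mul_of_nonneg_right (by linarith) hN
  have e8 : 16 * K ^ 3 * ε * D ≤ 2 * D := mul_le_mul_of_nonneg_right (by linarith) hD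
  have e9 : K ^ 0 * D ≤ K ^ 2 * D :=
    mul_le_mul_of_nonneg_right (pow_le_pow_right₀ hK (by norm_num)) hD
  have e10 : K * ((2 * (K * D) + 2 * (ε * (2 * K ^ 2 * N + 8 * K ^ 2 * D))) + D * K)
      = 3 * (K ^ 2 * D) + 4 * K ^ 3 * ε * N + 16 * K ^ 3 * ε * D := by ring
  rw [e10] at e6
  rw [pow_zero, one_mul] at e9
  linarith

/-- The pairing `G_y(c', A^q v)` is controlled by the memory of `c'`: from the almost symmetry of
`A^q` and (A-bound) at the vertex `q`. -/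
theorem adj_bound {Gy Gq Ny F : E → E → ℝ} (hGq : PF Gq) (A : E → E)
    {K ε D : ℝ} {c' : E} (hK : 1 ≤ K) (hε1 : ε ≤ 1) (hD1 : D ≤ 1)
    (hanti : ∀ v w, |Gq (A v) w - Gq v (A w)| ≤ K * √D * (√(F v v) * √(Gq w w)
        + √(F w w) * √(Gq v v))
      + K * √ε * (√(Gq (A v) (A v)) * √(F w w) + √(Gq (A w) (A w)) * √(F v v)))
    (hA : ∀ v, √(Gq (A v) (A v)) ≤ K * √ε * √(F v v))
    (hF : ∀ v, √(F v v) ≤ K * √(Gy v v))
    (hyq : ∀ v w, |Gy v w - Gq v w| ≤ K * (√(Ny v v) * √(Ny w w)))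
    (hNy : ∀ v, √(Ny v v) ≤ √(Gy v v))
    (hqy : ∀ v, √(Gq v v) ≤ K * √(Gy v v)) (hyq' : ∀ v, √(Gy v v) ≤ K * √(Gq v v))
    (hFc : √(F c' c') ≤ K * (√(Ny c' c') + √D)) (hc : √(Gy c' c') ≤ K) (v : E) :
    |Gy c' (A v)| ≤ 8 * K ^ 5 * (√(Ny c' c') + √D) * √(Gy v v) := by
  have hK0 : 0 ≤ K := by linarith
  have hsε : 0 ≤ √ε := Real.sqrt_nonneg _
  have hsε1 : √ε ≤ 1 := Real.sqrt_le_one.2 hε1
  have hsD : 0 ≤ √D := Real.sqrt_nonneg _
  have hsD1 : √D ≤ 1 := Real.sqrt_le_one.2 hD1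
  have a1 := hanti v c'
  have a2 := hA v
  have a3 := hA c'
  have a4 := hF v
  have a5 := hyq c' (A v)
  have a6 := hNy (A v)
  have a7 := hqy v
  have a8 := hqy c'
  have a9 := hyq' (A v)
  have a10 : |Gq v (A c')| ≤ √(Gq v v) * √(Gq (A c') (A c')) := hGq.abs_le v (A c')
  have a11 : Gq c' (A v) = Gq (A v) c' := hGq.symm _ _
  rw [a11] at a5
  have p1 : 0 ≤ √(F v v) := Real.sqrt_nonneg _
  have p2 : 0 ≤ √(F c' c') := Real.sqrt_nonneg _
  have p3 : 0 ≤ √(Gq v v) := Real.sqrt_nonneg _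
  have p4 : 0 ≤ √(Gq c' c') := Real.sqrt_nonneg _
  have p5 : 0 ≤ √(Gq (A v) (A v)) := Real.sqrt_nonneg _
  have p6 : 0 ≤ √(Gq (A c') (A c')) := Real.sqrt_nonneg _
  have p7 : 0 ≤ √(Gy v v) := Real.sqrt_nonneg _
  have p8 : 0 ≤ √(Ny c' c') := Real.sqrt_nonneg _
  have p9 : 0 ≤ √(Ny (A v) (A v)) := Real.sqrt_nonneg _
  have p10 : 0 ≤ √(Gy (A v) (A v)) := Real.sqrt_nonneg _
  have p11 : 0 ≤ √(Gy c' c') := Real.sqrt_nonneg _
  -- the total
  have t0 : |Gy c' (A v)| ≤ |Gy c' (A v) - Gq (A v) c'| + |Gq (A v) c' - Gq v (A c')|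
      + |Gq v (A c')| := by
    have := abs_add_three (Gy c' (A v) - Gq (A v) c') (Gq (A v) c' - Gq v (A c')) (Gq v (A c'))
    have e : Gy c' (A v) - Gq (A v) c' + (Gq (A v) c' - Gq v (A c')) + Gq v (A c')
        = Gy c' (A v) := by ring
    rwa [e] at this
  have t1 : |Gy c' (A v)| ≤ K * (√(Ny c' c') * √(Ny (A v) (A v)))
      + (K * √D * (√(F v v) * √(Gq c' c') + √(F c' c') * √(Gq v v))
      + K * √ε * (√(Gq (A v) (A v)) * √(F c' c') + √(Gq (A c') (A c')) * √(F v v)))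
      + √(Gq v v) * √(Gq (A c') (A c')) := by linarith
  clear t0 a1 a5 a10 hanti hA hF hyq hNy hqy hyq'
  generalize √(F v v) = fv at *
  generalize √(F c' c') = fc at *
  generalize √(Gq v v) = gv at *
  generalize √(Gq c' c') = gc at *
  generalize √(Gq (A v) (A v)) = gAv at *
  generalize √(Gq (A c') (A c')) = gAc at *
  generalize √(Gy v v) = x at *
  generalize √(Ny c' c') = nc at *
  generalize √(Ny (A v) (A v)) = nAv at *
  generalize √(Gy (A v) (A v)) = yAv at *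
  generalize √(Gy c' c') = yc at *
  generalize √ε = e at *
  generalize √D = δ at *
  -- bounds
  have b1 : fv ≤ K * x := a4
  have b2 : gAv ≤ K ^ 2 * x := by
    calc gAv ≤ K * e * fv := a2
      _ ≤ K * 1 * (K * x) := by gcongr
      _ = K ^ 2 * x := by ring
  have b3 : gAc ≤ K * fc := by
    calc gAc ≤ K * e * fc := a3
      _ ≤ K * 1 * fc := by gcongr
      _ = K * fc := by ring
  have b4 : nAv ≤ K ^ 3 * x := by
    calc nAv ≤ yAv := a6
      _ ≤ K * gAv := a9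
      _ ≤ K * (K ^ 2 * x) := by gcongr
      _ = K ^ 3 * x := by ring
  have b5 : gc ≤ K ^ 2 := by
    calc gc ≤ K * yc := a8
      _ ≤ K * K := by gcongr
      _ = K ^ 2 := by ring
  set w := nc + δ with hw
  have hw0 : 0 ≤ w := by positivity
  have hncw : nc ≤ w := by linarith
  have hδw : δ ≤ w := by linarith
  have c1 : K * (nc * nAv) ≤ K ^ 5 * (w * x) := by
    calc K * (nc * nAv) ≤ K * (w * (K ^ 3 * x)) := by gcongr
      _ = K ^ 4 * (w * x) := by ring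
      _ ≤ K ^ 5 * (w * x) :=
        mul_le_mul_of_nonneg_right (pow_le_pow_right₀ hK (by norm_num)) (by positivity)
  have c2 : K * δ * (fv * gc + fc * gv) ≤ 2 * K ^ 5 * (w * x) := by
    have : fv * gc ≤ (K * x) * K ^ 2 := by gcongr
    have h2 : K * δ * (fv * gc) ≤ K ^ 4 * (w * x) := by
      calc K * δ * (fv * gc) ≤ K * w * ((K * x) * K ^ 2) := by gcongr
        _ = K ^ 4 * (w * x) := by ring
    have h3 : K * δ * (fc * gv) ≤ K ^ 3 * (w * x) := by
      calc K * δ * (fc * gv) ≤ K * 1 * ((K * w) * (K * x)) := by gcongr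
        _ = K ^ 3 * (w * x) := by ring
    have h4 : K ^ 4 * (w * x) ≤ K ^ 5 * (w * x) :=
      mul_le_mul_of_nonneg_right (pow_le_pow_right₀ hK (by norm_num)) (by positivity)
    have h5 : K ^ 3 * (w * x) ≤ K ^ 5 * (w * x) :=
      mul_le_mul_of_nonneg_right (pow_le_pow_right₀ hK (by norm_num)) (by positivity)
    rw [mul_add]; linarith
  have c3 : K * e * (gAv * fc + gAc * fv) ≤ 2 * K ^ 5 * (w * x) := by
    have h2 : K * e * (gAv * fc) ≤ K ^ 4 * (w * x) := by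
      calc K * e * (gAv * fc) ≤ K * 1 * ((K ^ 2 * x) * (K * w)) := by gcongr
        _ = K ^ 4 * (w * x) := by ring
    have h3 : K * e * (gAc * fv) ≤ K ^ 4 * (w * x) := by
      calc K * e * (gAc * fv) ≤ K * 1 * ((K * (K * w)) * (K * x)) := by
            gcongr
            exact b3.trans (by gcongr)
        _ = K ^ 4 * (w * x) := by ring
    have h4 : K ^ 4 * (w * x) ≤ K ^ 5 * (w * x) :=
      mul_le_mul_of_nonneg_right (pow_le_pow_right₀ hK (by norm_num)) (by positivity)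
    rw [mul_add]; linarith
  have c4 : gv * gAc ≤ K ^ 5 * (w * x) := by
    calc gv * gAc ≤ (K * x) * (K * (K * w)) := by
          gcongr
          exact b3.trans (by gcongr)
      _ = K ^ 3 * (w * x) := by ring
      _ ≤ K ^ 5 * (w * x) :=
        mul_le_mul_of_nonneg_right (pow_le_pow_right₀ hK (by norm_num)) (by positivity)
  have c5 : 0 ≤ K ^ 5 * (w * x) := by positivity
  calc |Gy c' (A v)| ≤ _ := t1
    _ ≤ K ^ 5 * (w * x) + (2 * K ^ 5 * (w * x) + 2 * K ^ 5 * (w * x)) + K ^ 5 * (w * x) := by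
      linarith
    _ ≤ 8 * K ^ 5 * w * x := by nlinarith

/-- Hypotheses for the pair `(y, q)` at one scale (A10 of note 3517). `Gy, Gq` the Gram forms,
`Sy` the one scale mass at `y`, `Ny` the memory form at `y`, `Fq` the form `Na + D G` at `q`, `A` the
matrix at `q`, `c` the affine part of `(b_q - b_y)/r`, `c'` the vector with
`Gy c' w = -(u_w(q) - u_w(y))/r`, `D = D(y) + D(q)`. -/
structure PairHyp (Gy Gq Sy Ny Fq : E → E → ℝ) (A : E → E) (c c' : E) (K ε D : ℝ) : Prop where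
  K1 : 1 ≤ K
  ε0 : 0 ≤ ε
  D0 : 0 ≤ D
  D1 : D ≤ 1
  Gy_pf : PF Gy
  Gq_pf : PF Gq
  Sy_pf : PF Sy
  Ny_nonneg : ∀ v, 0 ≤ Ny v v
  rel : ∀ v, |Gy c v - Gy c' v - Gy c' (A v)| ≤ K * √D * √(Gy v v)
  Sc : Sy c c ≤ K * D
  Sε : ∀ v, Sy v v ≤ ε * Gy v v
  Nε : ∀ v, Ny v v ≤ Gy v v
  E6 : Ny c' c' ≤ K * (Sy c' c' + D * Gy c' c')
  norm : Gy c' c' ≤ K
  anti : ∀ v w, |Gq (A v) w - Gq v (A w)| ≤ K * √D * (√(Fq v v) * √(Gq w w)
        + √(Fq w w) * √(Gq v v))
      + K * √ε * (√(Gq (A v) (A v)) * √(Fq w w) + √(Gq (A w) (A w)) * √(Fq v v))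
  Abd : ∀ v, √(Gq (A v) (A v)) ≤ K * √ε * √(Fq v v)
  FG : ∀ v, Fq v v ≤ K * Gq v v
  FN : ∀ v, Fq v v ≤ K * (Ny v v + D * Gy v v)
  cmp : ∀ v w, |Gy v w - Gq v w| ≤ K * (√(Ny v v) * √(Ny w w))
  qy : ∀ v, Gq v v ≤ K * Gy v v
  yq : ∀ v, Gy v v ≤ K * Gq v v

/-- **(h5) at one scale, algebraic part**: `N_y(c') ≤ C D`. -/
theorem PairHyp.bound {Gy Gq Sy Ny Fq : E → E → ℝ} {A : E → E} {c c' : E} {K ε D : ℝ}
    (h : PairHyp Gy Gq Sy Ny Fq A c c' K ε D) (hsmall : 4096 * K ^ 15 * ε ≤ 1) :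
    Ny c' c' ≤ 640 * K ^ 10 * D := by
  have hK := h.K1
  have hK0 : 0 ≤ K := by linarith
  have hKpos : 0 < K := by linarith
  have hsK : √K ≤ K := by
    apply Real.sqrt_le_iff.2
    exact ⟨hK0, by nlinarith⟩
  have hsK2 : √(K * K) = K := Real.sqrt_mul_self hK0
  have hε1 : ε ≤ 1 := by
    have h1 : (1 : ℝ) ≤ K ^ 15 := one_le_pow₀ hK
    nlinarith [h.ε0]
  have cmp1 : ∀ v, √(Gq v v) ≤ K * √(Gy v v) := by
    intro v
    calc √(Gq v v) ≤ √(K * Gy v v) := Real.sqrt_le_sqrt (h.qy v)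
      _ = √K * √(Gy v v) := Real.sqrt_mul hK0 _
      _ ≤ K * √(Gy v v) := mul_le_mul_of_nonneg_right hsK (Real.sqrt_nonneg _)
  have cmp2 : ∀ v, √(Gy v v) ≤ K * √(Gq v v) := by
    intro v
    calc √(Gy v v) ≤ √(K * Gq v v) := Real.sqrt_le_sqrt (h.yq v)
      _ = √K * √(Gq v v) := Real.sqrt_mul hK0 _
      _ ≤ K * √(Gq v v) := mul_le_mul_of_nonneg_right hsK (Real.sqrt_nonneg _)
  have hadj := adj_bound (Gy := Gy) (Gq := Gq) (Ny := Ny) (F := Fq) h.Gq_pf A (K := K) (ε := ε)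
    (D := D) (c' := c') hK hε1 h.D1 h.anti h.Abd
    (by
      intro v
      calc √(Fq v v) ≤ √((K * K) * Gy v v) := by
            apply Real.sqrt_le_sqrt
            calc Fq v v ≤ K * Gq v v := h.FG v
              _ ≤ K * (K * Gy v v) := mul_le_mul_of_nonneg_left (h.qy v) hK0
              _ = (K * K) * Gy v v := by ring
        _ = K * √(Gy v v) := by rw [Real.sqrt_mul (by positivity), hsK2])
    h.cmp (fun v => Real.sqrt_le_sqrt (h.Nε v)) cmp1 cmp2
    (by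
      have e1 : Fq c' c' ≤ K * K * Ny c' c' + K * K * D := by
        have a1 := h.FN c'
        have a2 := mul_le_mul_of_nonneg_left h.norm h.D0
        have a3 : K * Ny c' c' ≤ K * K * Ny c' c' := by
          apply mul_le_mul_of_nonneg_right _ (h.Ny_nonneg c')
          nlinarith
        have a4 : K * (D * Gy c' c') ≤ K * (D * K) := mul_le_mul_of_nonneg_left a2 hK0
        nlinarith
      calc √(Fq c' c') ≤ √(K * K * Ny c' c' + K * K * D) := Real.sqrt_le_sqrt e1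
        _ ≤ K * (√(Ny c' c') + √D) := by
          apply Real.sqrt_le_iff.2
          refine ⟨by positivity, ?_⟩
          have p1 : √(Ny c' c') ^ 2 = Ny c' c' := Real.sq_sqrt (h.Ny_nonneg c')
          have p2 : √D ^ 2 = D := Real.sq_sqrt h.D0
          have p3 : 0 ≤ √(Ny c' c') * √D := by positivity
          have p4 : (K * (√(Ny c' c') + √D)) ^ 2 = K * K * √(Ny c' c') ^ 2 + K * K * √D ^ 2
            + 2 * (K * K) * (√(Ny c' c') * √D) := by ring
          rw [p4, p1, p2]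
          have : 0 ≤ 2 * (K * K) * (√(Ny c' c') * √D) := by positivity
          linarith)
    (by
      calc √(Gy c' c') ≤ √K := Real.sqrt_le_sqrt h.norm
        _ ≤ K := hsK)
  have hK5 : 1 ≤ K ^ 5 := one_le_pow₀ hK
  have hKK5 : K ≤ 8 * K ^ 5 := by
    have : K ≤ K ^ 5 := le_self_pow₀ hK (by norm_num)
    linarith
  have hres := pair_core (G := Gy) (S := Sy) h.Gy_pf h.Sy_pf A (c := c) (c' := c')
    (N := Ny c' c') (D := D) (K := 8 * K ^ 5) (ε := ε) (by linarith) h.D0 (h.Ny_nonneg c') h.ε0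
    (fun v => (h.rel v).trans (by gcongr))
    (h.Sc.trans (mul_le_mul_of_nonneg_right hKK5 h.D0))
    hadj h.Sε
    (h.E6.trans (mul_le_mul_of_nonneg_right hKK5
      (add_nonneg (h.Sy_pf.nonneg _) (mul_nonneg h.D0 (h.Gy_pf.nonneg _)))))
    (h.norm.trans hKK5)
    (by
      have : 8 * (8 * K ^ 5) ^ 3 * ε = 4096 * K ^ 15 * ε := by ring
      rw [this]; exact hsmall)
  calc Ny c' c' ≤ 10 * (8 * K ^ 5) ^ 2 * D := hres
    _ = 640 * K ^ 10 * D := by ring

end Vale.Agent.P242.H100
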