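import Vale.Agent.P242.H100.Mem

/-! P242, package A-E6P: the persistence inequality (E6') for real sequences. -/

open Finset

namespace Vale.Agent.P242.H100

/-- solving the one step recursion `p_i ≤ p_{i+1} + e_i + e_{i+1}` downwards -/
theorem mem_step {lam : ℝ} (hlam : 0 ≤ lam) (hlam1 : lam ≤ 1 / 2) {p e : ℕ → ℝ} {k : ℕ}
    (hp : ∀ i ≤ k, 0 ≤ p i) (he : ∀ i ≤ k, 0 ≤ e i)
    (hstep : ∀ i < k, p i ≤ p (i + 1) + (e i + e (i + 1))) :
    mem lam p k + 2 * e k ≤ 2 * p k + 3 * mem lam e k := by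
  induction k with
  | zero =>
    simp only [mem_zero]
    linarith [hp 0 le_rfl, he 0 le_rfl]
  | succ k ih =>
    have ih := ih (fun i hi => hp i (hi.trans (Nat.le_succ k)))
      (fun i hi => he i (hi.trans (Nat.le_succ k)))
      (fun i hi => hstep i (hi.trans (Nat.lt_succ_self k)))
    have h1 := hstep k (Nat.lt_succ_self k)
    have h2 := hp (k + 1) le_rfl
    have h3 := he (k + 1) le_rfl
    rw [mem_succ, mem_succ]
    have h4 := mul_le_mul_of_nonneg_left ih hlam
    have h5 := mul_le_mul_of_nonneg_left h1 hlam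
    have h6 := mul_le_mul_of_nonneg_right hlam1 h2
    have h7 := mul_le_mul_of_nonneg_right hlam1 h3
    nlinarith

/-- **(E6') for sequences.** -/
theorem persist_seq {lam lama om q K M b θ : ℝ} {s p x e : ℕ → ℝ} {k : ℕ}
    (hlam : 0 ≤ lam) (hlam1 : lam ≤ 1 / 2) (hlama : 0 ≤ lama) (h1 : 2 * lama ≤ lam)
    (hom : 0 ≤ om) (h2 : 2 * om ≤ lam) (hq : lam * q ≤ 1 / 2) (hK : 0 ≤ K) (hM : 0 ≤ M)
    (hb : 0 ≤ b) (hθ : 0 ≤ θ) (hθ1 : θ ≤ 1) (hθK : 32 * K * θ ≤ 1)
    (hs : ∀ i ≤ k, 0 ≤ s i) (hp : ∀ i ≤ k, 0 ≤ p i) (hx : ∀ i ≤ k, 0 ≤ x i)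
    (he0 : ∀ i ≤ k, 0 ≤ e i)
    (hxq : ∀ i < k, x i ≤ q * x (i + 1)) (hbx : b ≤ x 0)
    (hstep : ∀ i < k, p i ≤ p (i + 1) + (e i + e (i + 1)))
    (he : ∀ i ≤ k, e i ≤ θ * (mem lama s i + b * lama ^ i + x i) + M * x i)
    (hsp : ∀ i ≤ k, s i ≤ K * mem om p i + K * b * om ^ i) :
    mem lam s k + b * lam ^ k ≤ 8 * K * p k + (7 + 4 * K + 24 * K * M) * x k := by
  have hY0 : 0 ≤ mem lam s k := mem_nonneg hlam hs
  have hX : mem lam x k ≤ 2 * x k := mem_le_last hlam hq hx hxq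
  have hX0 : 0 ≤ mem lam x k := mem_nonneg hlam hx
  have hB : b * lam ^ k ≤ x k := start_le hlam (by linarith) hx hxq hbx
  have hB0 : 0 ≤ b * lam ^ k := mul_nonneg hb (pow_nonneg hlam k)
  have hPm := mem_step hlam hlam1 hp he0 hstep
  have hek := he0 k le_rfl
  have hE : mem lam e k ≤ θ * (2 * mem lam s k + 2 * (b * lam ^ k) + mem lam x k)
      + M * mem lam x k := by
    have e1 : mem lam e k ≤ mem lam (fun i => θ * (mem lama s i + b * lama ^ i + x i) + M * x i) k :=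
      mem_mono hlam he
    have e2 : mem lam (fun i => θ * (mem lama s i + b * lama ^ i + x i) + M * x i) k
        = θ * (mem lam (mem lama s) k + b * mem lam (fun i => lama ^ i) k + mem lam x k)
          + M * mem lam x k := by
      rw [mem_add, mem_smul, mem_smul, mem_add, mem_add, mem_smul]
    have e3 := mem_mem_le hlama h1 hs
    have e4 := mem_pow_le hlama h1 k
    have e5 := mul_le_mul_of_nonneg_left e4 hb
    have e6 : mem lam (mem lama s) k + b * mem lam (fun i => lama ^ i) k + mem lam x k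
        ≤ 2 * mem lam s k + 2 * (b * lam ^ k) + mem lam x k := by linarith
    have e7 := mul_le_mul_of_nonneg_left e6 hθ
    linarith
  have hY : mem lam s k ≤ 2 * K * mem lam p k + 2 * K * (b * lam ^ k) := by
    have e1 : mem lam s k ≤ mem lam (fun i => K * mem om p i + K * b * om ^ i) k :=
      mem_mono hlam hsp
    have e2 : mem lam (fun i => K * mem om p i + K * b * om ^ i) k
        = K * mem lam (mem om p) k + K * b * mem lam (fun i => om ^ i) k := by
      rw [mem_add, mem_smul, mem_smul]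
    have e3 := mul_le_mul_of_nonneg_left (mem_mem_le hom h2 hp) hK
    have e4 := mul_le_mul_of_nonneg_left (mem_pow_le hom h2 k) (mul_nonneg hK hb)
    linarith
  -- combine
  have hxk := hx k le_rfl
  have hpk := hp k le_rfl
  have c1 : mem lam p k ≤ 2 * p k + 3 * (θ * (2 * mem lam s k + 2 * (b * lam ^ k) + mem lam x k)
      + M * mem lam x k) := by linarith
  have c2 := mul_le_mul_of_nonneg_left c1 (by linarith : 0 ≤ 2 * K)
  have hKθ : 0 ≤ K * θ := mul_nonneg hK hθ
  have hKθ' : K * θ ≤ 1 / 32 := by linarith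
  have hKM : 0 ≤ K * M := mul_nonneg hK hM
  have t1 : K * θ * mem lam s k ≤ 1 / 32 * mem lam s k := mul_le_mul_of_nonneg_right hKθ' hY0
  have t2 : K * θ * (b * lam ^ k) ≤ 1 / 32 * (b * lam ^ k) := mul_le_mul_of_nonneg_right hKθ' hB0
  have t3 : K * θ * mem lam x k ≤ 1 / 32 * mem lam x k := mul_le_mul_of_nonneg_right hKθ' hX0
  have t4 : K * M * mem lam x k ≤ K * M * (2 * x k) := mul_le_mul_of_nonneg_left hX hKM
  have t5 : K * (b * lam ^ k) ≤ K * x k := mul_le_mul_of_nonneg_left hB hK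
  have c3 : mem lam s k ≤ 4 * K * p k + 12 * (K * θ * mem lam s k)
      + 12 * (K * θ * (b * lam ^ k)) + 6 * (K * θ * mem lam x k) + 6 * (K * M * mem lam x k)
      + 2 * (K * (b * lam ^ k)) := by linarith
  nlinarith

end Vale.Agent.P242.H100
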